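import Vale.Agent.P254.S.H130.Gauss

/-!
# P254, block SP: functions which are locally Lipschitz with polynomial growth, Gaussian integration by parts
-/

open MeasureTheory Matrix Finset Filter
open scoped ENNReal NNReal Topology

noncomputable section

namespace Vale.Agent.P254.SP.H828

open Vale.Agent.P227.M Vale.Agent.P254.S Vale.Agent.P254.S130

variable {n : ℕ} {f g : E n → ℝ}

/-- polynomial growth -/
def PG (f : E n → ℝ) : Prop := ∃ (C : ℝ) (k : ℕ), ∀ x, |f x| ≤ C * (1 + ‖x‖) ^ k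

/-- locally Lipschitz, with polynomial growth (also of the Lipschitz constants) -/
def PL (f : E n → ℝ) : Prop :=
  ∃ (C : ℝ) (k : ℕ), (∀ x, |f x| ≤ C * (1 + ‖x‖) ^ k) ∧
    ∀ x y, |f x - f y| ≤ C * (1 + ‖x‖ + ‖y‖) ^ k * ‖x - y‖

lemma PL.pg (hf : PL f) : PG f := by
  obtain ⟨C, k, h, -⟩ := hf
  exact ⟨C, k, h⟩

lemma PG.bound (hf : PG f) : ∃ (C : ℝ) (k : ℕ), 0 ≤ C ∧ ∀ x, |f x| ≤ C * (1 + ‖x‖) ^ k := by
  obtain ⟨C, k, h⟩ := hf
  refine ⟨C, k, ?_, h⟩
  have := (abs_nonneg _).trans (h 0)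
  simpa using this

lemma PL.bound (hf : PL f) : ∃ (C : ℝ) (k : ℕ), 0 ≤ C ∧ (∀ x, |f x| ≤ C * (1 + ‖x‖) ^ k) ∧
    ∀ x y, |f x - f y| ≤ C * (1 + ‖x‖ + ‖y‖) ^ k * ‖x - y‖ := by
  obtain ⟨C, k, h, h'⟩ := hf
  refine ⟨C, k, ?_, h, h'⟩
  have := (abs_nonneg _).trans (h 0)
  simpa using this

lemma one_le_nx (x : E n) : 1 ≤ 1 + ‖x‖ := by linarith [norm_nonneg x]

lemma one_le_nxy (x y : E n) : 1 ≤ 1 + ‖x‖ + ‖y‖ := by linarith [norm_nonneg x, norm_nonneg y]

lemma PG.add (hf : PG f) (hg : PG g) : PG fun x => f x + g x := by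
  obtain ⟨A, k, hA0, hA⟩ := hf.bound
  obtain ⟨B, l, hB0, hB⟩ := hg.bound
  refine ⟨A + B, k + l, fun x => ?_⟩
  have h1 : (1 + ‖x‖) ^ k ≤ (1 + ‖x‖) ^ (k + l) := pow_le_pow_right₀ (one_le_nx x) (by omega)
  have h2 : (1 + ‖x‖) ^ l ≤ (1 + ‖x‖) ^ (k + l) := pow_le_pow_right₀ (one_le_nx x) (by omega)
  calc |f x + g x| ≤ |f x| + |g x| := abs_add_le _ _
    _ ≤ A * (1 + ‖x‖) ^ k + B * (1 + ‖x‖) ^ l := add_le_add (hA x) (hB x)
    _ ≤ A * (1 + ‖x‖) ^ (k + l) + B * (1 + ‖x‖) ^ (k + l) :=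
        add_le_add (mul_le_mul_of_nonneg_left h1 hA0) (mul_le_mul_of_nonneg_left h2 hB0)
    _ = _ := by ring

lemma PG.mul (hf : PG f) (hg : PG g) : PG fun x => f x * g x := by
  obtain ⟨A, k, hA0, hA⟩ := hf.bound
  obtain ⟨B, l, hB0, hB⟩ := hg.bound
  refine ⟨A * B, k + l, fun x => ?_⟩
  rw [abs_mul]
  calc |f x| * |g x| ≤ (A * (1 + ‖x‖) ^ k) * (B * (1 + ‖x‖) ^ l) :=
        mul_le_mul (hA x) (hB x) (abs_nonneg _) ((abs_nonneg _).trans (hA x))
    _ = _ := by rw [pow_add]; ring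

lemma PG.const (c : ℝ) : PG fun _ : E n => c := ⟨|c|, 0, fun _ => by simp⟩

lemma PG.neg (hf : PG f) : PG fun x => -f x := by
  obtain ⟨A, k, h⟩ := hf
  exact ⟨A, k, fun x => by rw [abs_neg]; exact h x⟩

lemma PG.sub (hf : PG f) (hg : PG g) : PG fun x => f x - g x := by
  simpa only [sub_eq_add_neg] using hf.add hg.neg

lemma PG.pow (hf : PG f) (m : ℕ) : PG fun x => f x ^ m := by
  induction m with
  | zero => simpa using PG.const (n := n) 1
  | succ m ih => simpa only [pow_succ] using ih.mul hf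

lemma PG.sum {κ : Type*} (s : Finset κ) {f : κ → E n → ℝ} (h : ∀ k ∈ s, PG (f k)) :
    PG fun x => ∑ k ∈ s, f k x := by
  classical
  induction s using Finset.induction_on with
  | empty => simpa using PG.const (n := n) 0
  | insert k s hk ih =>
    simp only [Finset.sum_insert hk]
    exact (h k (Finset.mem_insert_self _ _)).add (ih fun j hj => h j (Finset.mem_insert_of_mem hj))

lemma PL.add (hf : PL f) (hg : PL g) : PL fun x => f x + g x := by
  obtain ⟨A, k, hA0, hA, hA'⟩ := hf.bound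
  obtain ⟨B, l, hB0, hB, hB'⟩ := hg.bound
  refine ⟨A + B, k + l, fun x => ?_, fun x y => ?_⟩
  · have h1 : (1 + ‖x‖) ^ k ≤ (1 + ‖x‖) ^ (k + l) := pow_le_pow_right₀ (one_le_nx x) (by omega)
    have h2 : (1 + ‖x‖) ^ l ≤ (1 + ‖x‖) ^ (k + l) := pow_le_pow_right₀ (one_le_nx x) (by omega)
    calc |f x + g x| ≤ |f x| + |g x| := abs_add_le _ _
      _ ≤ A * (1 + ‖x‖) ^ k + B * (1 + ‖x‖) ^ l := add_le_add (hA x) (hB x)
      _ ≤ A * (1 + ‖x‖) ^ (k + l) + B * (1 + ‖x‖) ^ (k + l) :=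
          add_le_add (mul_le_mul_of_nonneg_left h1 hA0) (mul_le_mul_of_nonneg_left h2 hB0)
      _ = _ := by ring
  · have h1 : (1 + ‖x‖ + ‖y‖) ^ k ≤ (1 + ‖x‖ + ‖y‖) ^ (k + l) :=
      pow_le_pow_right₀ (one_le_nxy x y) (by omega)
    have h2 : (1 + ‖x‖ + ‖y‖) ^ l ≤ (1 + ‖x‖ + ‖y‖) ^ (k + l) :=
      pow_le_pow_right₀ (one_le_nxy x y) (by omega)
    have e : f x + g x - (f y + g y) = (f x - f y) + (g x - g y) := by ring
    rw [e]
    calc |(f x - f y) + (g x - g y)| ≤ |f x - f y| + |g x - g y| := abs_add_le _ _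
      _ ≤ A * (1 + ‖x‖ + ‖y‖) ^ k * ‖x - y‖ + B * (1 + ‖x‖ + ‖y‖) ^ l * ‖x - y‖ :=
          add_le_add (hA' x y) (hB' x y)
      _ ≤ A * (1 + ‖x‖ + ‖y‖) ^ (k + l) * ‖x - y‖ + B * (1 + ‖x‖ + ‖y‖) ^ (k + l) * ‖x - y‖ :=
          add_le_add
            (mul_le_mul_of_nonneg_right (mul_le_mul_of_nonneg_left h1 hA0) (norm_nonneg _))
            (mul_le_mul_of_nonneg_right (mul_le_mul_of_nonneg_left h2 hB0) (norm_nonneg _))
      _ = _ := by ring

lemma PL.mul (hf : PL f) (hg : PL g) : PL fun x => f x * g x := by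
  obtain ⟨A, k, hA0, hA, hA'⟩ := hf.bound
  obtain ⟨B, l, hB0, hB, hB'⟩ := hg.bound
  refine ⟨2 * (A * B), k + l, fun x => ?_, fun x y => ?_⟩
  · rw [abs_mul]
    have h0 : 0 ≤ (1 + ‖x‖) ^ (k + l) := pow_nonneg (by linarith [one_le_nx x]) _
    calc |f x| * |g x| ≤ (A * (1 + ‖x‖) ^ k) * (B * (1 + ‖x‖) ^ l) :=
          mul_le_mul (hA x) (hB x) (abs_nonneg _) ((abs_nonneg _).trans (hA x))
      _ = A * B * (1 + ‖x‖) ^ (k + l) := by rw [pow_add]; ring
      _ ≤ 2 * (A * B) * (1 + ‖x‖) ^ (k + l) := by nlinarith [mul_nonneg (mul_nonneg hA0 hB0) h0]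
  · set r := 1 + ‖x‖ + ‖y‖ with hr
    have hr1 : 1 ≤ r := one_le_nxy x y
    have hx : (1 + ‖x‖) ≤ r := by rw [hr]; linarith [norm_nonneg y]
    have hy : (1 + ‖y‖) ≤ r := by rw [hr]; linarith [norm_nonneg x]
    have hfx : |f x| ≤ A * r ^ k :=
      (hA x).trans (mul_le_mul_of_nonneg_left (pow_le_pow_left₀ (by linarith [one_le_nx x]) hx k) hA0)
    have hgy : |g y| ≤ B * r ^ l :=
      (hB y).trans (mul_le_mul_of_nonneg_left (pow_le_pow_left₀ (by linarith [one_le_nx y]) hy l) hB0)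
    have e : f x * g x - f y * g y = f x * (g x - g y) + g y * (f x - f y) := by ring
    rw [e]
    refine (abs_add_le _ _).trans ?_
    rw [abs_mul, abs_mul]
    have h1 : |f x| * |g x - g y| ≤ (A * r ^ k) * (B * r ^ l * ‖x - y‖) :=
      mul_le_mul hfx (hB' x y) (abs_nonneg _) ((abs_nonneg _).trans hfx)
    have h2 : |g y| * |f x - f y| ≤ (B * r ^ l) * (A * r ^ k * ‖x - y‖) :=
      mul_le_mul hgy (hA' x y) (abs_nonneg _) ((abs_nonneg _).trans hgy)
    calc _ ≤ (A * r ^ k) * (B * r ^ l * ‖x - y‖) + (B * r ^ l) * (A * r ^ k * ‖x - y‖) :=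
          add_le_add h1 h2
      _ = _ := by rw [pow_add]; ring

lemma PL.const (c : ℝ) : PL fun _ : E n => c := ⟨|c|, 0, fun _ => by simp, fun x y => by simp; positivity⟩

lemma PL.neg (hf : PL f) : PL fun x => -f x := by
  simpa using (PL.const (n := n) (-1)).mul hf

lemma PL.sub (hf : PL f) (hg : PL g) : PL fun x => f x - g x := by
  simpa only [sub_eq_add_neg] using hf.add hg.neg

lemma PL.sum {κ : Type*} (s : Finset κ) {f : κ → E n → ℝ} (h : ∀ k ∈ s, PL (f k)) :
    PL fun x => ∑ k ∈ s, f k x := by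
  classical
  induction s using Finset.induction_on with
  | empty => simpa using PL.const (n := n) 0
  | insert k s hk ih =>
    simp only [Finset.sum_insert hk]
    exact (h k (Finset.mem_insert_self _ _)).add (ih fun j hj => h j (Finset.mem_insert_of_mem hj))

/-- a Lipschitz function -/
lemma PL.of_lip {K : ℝ} (h : ∀ x y, |f x - f y| ≤ K * ‖x - y‖) : PL f := by
  refine ⟨|f 0| + |K|, 1, fun x => ?_, fun x y => ?_⟩
  · have h1 := h x 0
    rw [sub_zero] at h1
    have h2 : |f x| ≤ |f x - f 0| + |f 0| := by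
      have := abs_add_le (f x - f 0) (f 0)
      simpa using this
    have h3 : K * ‖x‖ ≤ |K| * ‖x‖ := mul_le_mul_of_nonneg_right (le_abs_self _) (norm_nonneg _)
    rw [pow_one]
    nlinarith [abs_nonneg (f 0), abs_nonneg K, norm_nonneg x, mul_nonneg (abs_nonneg (f 0)) (norm_nonneg x)]
  · have h1 := h x y
    have h3 : K * ‖x - y‖ ≤ |K| * ‖x - y‖ := mul_le_mul_of_nonneg_right (le_abs_self _) (norm_nonneg _)
    rw [pow_one]
    have h4 : |K| * ‖x - y‖ ≤ (|f 0| + |K|) * (1 + ‖x‖ + ‖y‖) * ‖x - y‖ := by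
      refine mul_le_mul_of_nonneg_right ?_ (norm_nonneg _)
      have := one_le_nxy x y
      nlinarith [abs_nonneg (f 0), abs_nonneg K]
    linarith

lemma PL.of_BL (h : BL f) : PL f := by
  obtain ⟨-, K, hK⟩ := h
  exact PL.of_lip hK

/-- coordinates -/
lemma PL.coord (i : Fin n) : PL fun x : E n => x i := by
  refine PL.of_lip (K := 1) fun x y => ?_
  rw [one_mul]
  have := EuclideanSpace.norm_eq (x - y)
  have h : |(x - y) i| ≤ ‖x - y‖ := by
    rw [← Real.norm_eq_abs]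
    exact PiLp.norm_apply_le _ i
  simpa using h

lemma PL.continuous (hf : PL f) : Continuous f := by
  obtain ⟨C, k, hC, -, h⟩ := hf.bound
  rw [continuous_iff_continuousAt]
  intro x
  rw [Metric.continuousAt_iff]
  intro ε hε
  set K := C * (2 + 2 * ‖x‖) ^ k + 1 with hK
  have hK0 : 0 < K := by
    have : 0 ≤ (2 + 2 * ‖x‖) ^ k := pow_nonneg (by linarith [norm_nonneg x]) _
    nlinarith [mul_nonneg hC this]
  refine ⟨min 1 (ε / K), lt_min one_pos (div_pos hε hK0), fun {y} hy => ?_⟩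
  have hy1 : ‖y - x‖ < 1 := by
    rw [← dist_eq_norm]; exact hy.trans_le (min_le_left _ _)
  have hy2 : ‖y - x‖ < ε / K := by
    rw [← dist_eq_norm]; exact hy.trans_le (min_le_right _ _)
  have hyn : ‖y‖ ≤ ‖x‖ + 1 := by
    have := norm_add_le (y - x) x
    rw [sub_add_cancel] at this
    linarith
  rw [Real.dist_eq]
  have h2 : (1 + ‖y‖ + ‖x‖) ^ k ≤ (2 + 2 * ‖x‖) ^ k :=
    pow_le_pow_left₀ (by linarith [norm_nonneg x, norm_nonneg y]) (by linarith) k
  have h3 : C * (1 + ‖y‖ + ‖x‖) ^ k ≤ K := by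
    have := mul_le_mul_of_nonneg_left h2 hC
    linarith
  calc |f y - f x| ≤ C * (1 + ‖y‖ + ‖x‖) ^ k * ‖y - x‖ := h y x
    _ ≤ K * ‖y - x‖ := mul_le_mul_of_nonneg_right h3 (norm_nonneg _)
    _ < K * (ε / K) := mul_lt_mul_of_pos_left hy2 hK0
    _ = ε := by field_simp

/-- bound of the derivative -/
lemma PL.fderiv_bound (hf : PL f) : ∃ (C : ℝ) (k : ℕ), 0 ≤ C ∧ ∀ x, ‖fderiv ℝ f x‖ ≤ C * (1 + ‖x‖) ^ k := by
  obtain ⟨C, k, hC, -, h⟩ := hf.bound
  refine ⟨C * 2 ^ k, k, by positivity, fun x => ?_⟩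
  have h0 : 0 ≤ C * (2 + 2 * ‖x‖) ^ k :=
    mul_nonneg hC (pow_nonneg (by linarith [norm_nonneg x]) _)
  have h1 : ‖fderiv ℝ f x‖ ≤ C * (2 + 2 * ‖x‖) ^ k := by
    refine norm_fderiv_le_of_lip' ℝ h0 ?_
    filter_upwards [Metric.ball_mem_nhds x one_pos] with y hy
    rw [Metric.mem_ball, dist_eq_norm] at hy
    have hyn : ‖y‖ ≤ ‖x‖ + 1 := by
      have := norm_add_le (y - x) x
      rw [sub_add_cancel] at this
      linarith
    have h2 : (1 + ‖y‖ + ‖x‖) ^ k ≤ (2 + 2 * ‖x‖) ^ k :=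
      pow_le_pow_left₀ (by linarith [norm_nonneg x, norm_nonneg y]) (by linarith) k
    rw [Real.norm_eq_abs]
    exact (h y x).trans (mul_le_mul_of_nonneg_right (mul_le_mul_of_nonneg_left h2 hC) (norm_nonneg _))
  have h3 : (2 + 2 * ‖x‖) ^ k = 2 ^ k * (1 + ‖x‖) ^ k := by rw [← mul_pow]; ring
  rw [h3] at h1
  linarith [h1]

lemma norm_ei (i : Fin n) : ‖(ei i : E n)‖ = 1 := by
  unfold ei
  simp

lemma PL.pg_pd (hf : PL f) (i : Fin n) : PG (pd i f) := by
  obtain ⟨C, k, -, h⟩ := hf.fderiv_bound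
  refine ⟨C, k, fun x => ?_⟩
  unfold pd
  have := (fderiv ℝ f x).le_opNorm (ei i)
  rw [norm_ei, mul_one, Real.norm_eq_abs] at this
  exact this.trans (h x)

lemma meas_pd (f : E n → ℝ) (i : Fin n) : Measurable (pd i f) := by
  unfold pd
  exact measurable_fderiv_apply_const ℝ f (ei i)

/-- almost everywhere differentiable -/
lemma PL.ae_diff (hf : PL f) : ∀ᵐ x ∂(volume : Measure (E n)), DifferentiableAt ℝ f x := by
  obtain ⟨C, k, hC, -, h⟩ := hf.bound
  have key : ∀ N : ℕ, ∀ᵐ x ∂(volume : Measure (E n)), x ∈ Metric.ball (0 : E n) N → DifferentiableAt ℝ f x := by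
    intro N
    have hl : LipschitzOnWith (Real.toNNReal (C * (1 + 2 * N) ^ k)) f (Metric.ball (0 : E n) N) := by
      refine LipschitzOnWith.of_dist_le_mul fun x hx y hy => ?_
      rw [Metric.mem_ball, dist_zero_right] at hx hy
      have h0 : 0 ≤ C * (1 + 2 * (N : ℝ)) ^ k := by positivity
      rw [Real.coe_toNNReal _ h0, Real.dist_eq, dist_eq_norm]
      refine (h x y).trans (mul_le_mul_of_nonneg_right (mul_le_mul_of_nonneg_left ?_ hC) (norm_nonneg _))
      exact pow_le_pow_left₀ (by linarith [norm_nonneg x, norm_nonneg y]) (by linarith) k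
    have := hl.ae_differentiableWithinAt_of_mem (μ := (volume : Measure (E n)))
    filter_upwards [this] with x hx hxb
    exact (hx hxb).differentiableAt (Metric.isOpen_ball.mem_nhds hxb)
  filter_upwards [ae_all_iff.2 key] with x hx
  obtain ⟨N, hN⟩ := exists_nat_gt ‖x‖
  exact hx N (by rw [Metric.mem_ball, dist_zero_right]; exact hN)

lemma PL.ae_diffQ (hf : PL f) : ∀ᵐ x ∂(gQ n), DifferentiableAt ℝ f x :=
  gQ_ac.ae_le hf.ae_diff

/-! ### integrability -/

lemma int_exp4 : Integrable fun z : E n => Real.exp (-(1 / 4 : ℝ) * ‖z‖ ^ 2) := by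
  by_contra h
  have h1 := GaussianFourier.integral_rexp_neg_mul_sq_norm (V := E n) (b := 1 / 4) (by norm_num)
  rw [integral_undef h] at h1
  have : 0 < (Real.pi / (1 / 4 : ℝ)) ^ ((Module.finrank ℝ (E n) : ℝ) / 2) := by positivity
  linarith

lemma pow_le_exp4 (k : ℕ) (r : ℝ) (hr : 0 ≤ r) :
    (1 + r) ^ k ≤ (k.factorial : ℝ) * Real.exp 2 * Real.exp ((1 / 4 : ℝ) * r ^ 2) := by
  have h1 := Real.pow_div_factorial_le_exp (1 + r) (by linarith) k
  rw [div_le_iff₀ (by positivity)] at h1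
  have h2 : Real.exp (1 + r) ≤ Real.exp 2 * Real.exp ((1 / 4 : ℝ) * r ^ 2) := by
    rw [← Real.exp_add]
    exact Real.exp_le_exp.2 (by nlinarith [sq_nonneg (r - 2)])
  calc (1 + r) ^ k ≤ Real.exp (1 + r) * (k.factorial : ℝ) := h1
    _ ≤ (Real.exp 2 * Real.exp ((1 / 4 : ℝ) * r ^ 2)) * (k.factorial : ℝ) :=
        mul_le_mul_of_nonneg_right h2 (by positivity)
    _ = _ := by ring

lemma int_exp8 : Integrable fun z : E n => Real.exp (-(1 / 8 : ℝ) * ‖z‖ ^ 2) := by
  by_contra h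
  have h1 := GaussianFourier.integral_rexp_neg_mul_sq_norm (V := E n) (b := 1 / 8) (by norm_num)
  rw [integral_undef h] at h1
  have : 0 < (Real.pi / (1 / 8 : ℝ)) ^ ((Module.finrank ℝ (E n) : ℝ) / 2) := by positivity
  linarith

lemma pow_le_exp8 (k : ℕ) (r : ℝ) (hr : 0 ≤ r) :
    (1 + r) ^ k ≤ (k.factorial : ℝ) * Real.exp 3 * Real.exp ((1 / 8 : ℝ) * r ^ 2) := by
  have h1 := Real.pow_div_factorial_le_exp (1 + r) (by linarith) k
  rw [div_le_iff₀ (by positivity)] at h1
  have h2 : Real.exp (1 + r) ≤ Real.exp 3 * Real.exp ((1 / 8 : ℝ) * r ^ 2) := by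
    rw [← Real.exp_add]
    exact Real.exp_le_exp.2 (by nlinarith [sq_nonneg (r - 4)])
  calc (1 + r) ^ k ≤ Real.exp (1 + r) * (k.factorial : ℝ) := h1
    _ ≤ (Real.exp 3 * Real.exp ((1 / 8 : ℝ) * r ^ 2)) * (k.factorial : ℝ) :=
        mul_le_mul_of_nonneg_right h2 (by positivity)
    _ = _ := by ring

lemma int_pow_exp (k : ℕ) : Integrable fun z : E n => (1 + ‖z‖) ^ k * Real.exp (-Q z) := by
  refine Integrable.mono' (int_exp4.const_mul ((k.factorial : ℝ) * Real.exp 2)) ?_ (ae_of_all _ fun z => ?_)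
  · exact (((continuous_const.add continuous_norm).pow k).mul
      (Real.continuous_exp.comp cont_Q.neg)).aestronglyMeasurable
  · have h0 : 0 ≤ (1 + ‖z‖) ^ k * Real.exp (-Q z) := by positivity
    rw [Real.norm_eq_abs, abs_of_nonneg h0, Q_eq]
    have h1 := pow_le_exp4 k ‖z‖ (norm_nonneg z)
    have h2 : Real.exp (-(1 / 2 : ℝ) * ‖z‖ ^ 2)
        = Real.exp (-(1 / 4 : ℝ) * ‖z‖ ^ 2) * Real.exp (-(1 / 4 : ℝ) * ‖z‖ ^ 2) := by
      rw [← Real.exp_add]; ring_nf
    have h3 : Real.exp ((1 / 4 : ℝ) * ‖z‖ ^ 2) * Real.exp (-(1 / 4 : ℝ) * ‖z‖ ^ 2) = 1 := by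
      rw [← Real.exp_add]; ring_nf; simp
    calc (1 + ‖z‖) ^ k * Real.exp (-(1 / 2 : ℝ) * ‖z‖ ^ 2)
        ≤ ((k.factorial : ℝ) * Real.exp 2 * Real.exp ((1 / 4 : ℝ) * ‖z‖ ^ 2))
          * Real.exp (-(1 / 2 : ℝ) * ‖z‖ ^ 2) := mul_le_mul_of_nonneg_right h1 (Real.exp_pos _).le
      _ = ((k.factorial : ℝ) * Real.exp 2) *
          ((Real.exp ((1 / 4 : ℝ) * ‖z‖ ^ 2) * Real.exp (-(1 / 4 : ℝ) * ‖z‖ ^ 2))
            * Real.exp (-(1 / 4 : ℝ) * ‖z‖ ^ 2)) := by rw [h2]; ring
      _ = _ := by rw [h3, one_mul]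

lemma intQ_iff : Integrable f (gQ n) ↔ Integrable (fun z => f z * dens z) := by
  have h := integrable_withDensity_iff_integrable_smul' (μ := (volume : Measure (E n)))
    (f := fun z : E n => ENNReal.ofReal (dens z)) (g := f)
    (ENNReal.measurable_ofReal.comp dens_cont.measurable)
    (ae_of_all _ fun z => ENNReal.ofReal_lt_top)
  rw [gQ, h]
  refine integrable_congr (ae_of_all _ fun z => ?_)
  show (ENNReal.ofReal (dens z)).toReal • f z = f z * dens z
  rw [ENNReal.toReal_ofReal (dens_pos z).le, smul_eq_mul, mul_comm]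

lemma intQ_eq : ∫ z, f z ∂(gQ n) = ∫ z, f z * dens z := by
  have h := integral_withDensity_eq_integral_toReal_smul (μ := (volume : Measure (E n)))
    (f := fun z : E n => ENNReal.ofReal (dens z))
    (ENNReal.measurable_ofReal.comp dens_cont.measurable)
    (ae_of_all _ fun z => ENNReal.ofReal_lt_top) f
  rw [gQ, h]
  refine integral_congr_ae (ae_of_all _ fun z => ?_)
  show (ENNReal.ofReal (dens z)).toReal • f z = f z * dens z
  rw [ENNReal.toReal_ofReal (dens_pos z).le, smul_eq_mul, mul_comm]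

lemma int_pow (k : ℕ) : Integrable (fun z : E n => (1 + ‖z‖) ^ k) (gQ n) := by
  rw [intQ_iff]
  have := (int_pow_exp (n := n) k).div_const (∫ z : E n, Real.exp (-Q z))
  refine this.congr (ae_of_all _ fun z => ?_)
  show (1 + ‖z‖) ^ k * Real.exp (-Q z) / _ = (1 + ‖z‖) ^ k * (Real.exp (-Q z) / _)
  rw [mul_div_assoc]

lemma PG.integrable (hf : PG f) (hm : AEStronglyMeasurable f (gQ n)) : Integrable f (gQ n) := by
  obtain ⟨C, k, hC, h⟩ := hf.bound
  exact Integrable.mono' ((int_pow k).const_mul C) hm (ae_of_all _ fun z => by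
    rw [Real.norm_eq_abs]; exact h z)

lemma PL.meas (hf : PL f) : AEStronglyMeasurable f (gQ n) := hf.continuous.aestronglyMeasurable

lemma PL.integrable (hf : PL f) : Integrable f (gQ n) := hf.pg.integrable hf.meas

lemma PL.integrable_pd (hf : PL f) (i : Fin n) : Integrable (pd i f) (gQ n) :=
  (hf.pg_pd i).integrable (meas_pd f i).aestronglyMeasurable

/-! ### product rule -/

lemma pd_mul {x : E n} (hf : DifferentiableAt ℝ f x) (hg : DifferentiableAt ℝ g x) (i : Fin n) :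
    pd i (fun y => f y * g y) x = f x * pd i g x + g x * pd i f x := by
  unfold pd
  rw [fderiv_fun_mul hf hg]
  simp [smul_eq_mul]

lemma pd_add {x : E n} (hf : DifferentiableAt ℝ f x) (hg : DifferentiableAt ℝ g x) (i : Fin n) :
    pd i (fun y => f y + g y) x = pd i f x + pd i g x := by
  unfold pd
  rw [fderiv_fun_add hf hg]
  simp

lemma pd_sub {x : E n} (hf : DifferentiableAt ℝ f x) (hg : DifferentiableAt ℝ g x) (i : Fin n) :
    pd i (fun y => f y - g y) x = pd i f x - pd i g x := by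
  unfold pd
  rw [fderiv_fun_sub hf hg]
  simp

lemma pd_sum {κ : Type*} (s : Finset κ) {f : κ → E n → ℝ} {x : E n}
    (h : ∀ k ∈ s, DifferentiableAt ℝ (f k) x) (i : Fin n) :
    pd i (fun y => ∑ k ∈ s, f k y) x = ∑ k ∈ s, pd i (f k) x := by
  unfold pd
  rw [fderiv_fun_sum h]
  simp

lemma pd_const (c : ℝ) (i : Fin n) (x : E n) : pd i (fun _ : E n => c) x = 0 := by
  unfold pd
  simp

lemma pd_coord (i j : Fin n) (x : E n) : pd i (fun y : E n => y j) x = if i = j then 1 else 0 := by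
  unfold pd
  have h : (fun y : E n => y j) = (EuclideanSpace.proj j : E n →L[ℝ] ℝ) := rfl
  rw [h, ContinuousLinearMap.fderiv]
  unfold ei
  simp [eq_comm]

/-! ### integration by parts -/

lemma Q_hasDeriv (x : E n) (i : Fin n) (t : ℝ) :
    HasDerivAt (fun s : ℝ => Q (x - s • ei i)) (-((x - t • ei i) i)) t := by
  have h1 : HasDerivAt (fun s : ℝ => x - s • (ei i : E n)) (-(ei i)) t := by
    have := ((hasDerivAt_id t).smul_const (ei i : E n)).const_sub x
    simpa using this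
  have h2 := h1.norm_sq
  have h3 := h2.div_const 2
  unfold Q
  have h4 : inner ℝ (x - t • (ei i : E n)) (ei i) = (x - t • ei i) i := by
    unfold ei
    rw [real_inner_comm]
    simp [EuclideanSpace.inner_single_left]
  have h5 : 2 * inner ℝ (x - t • (ei i : E n)) (-(ei i)) / 2 = -((x - t • ei i) i) := by
    rw [inner_neg_right, h4]
    ring
  rw [← h5]
  exact h3

/-- **Gaussian integration by parts** -/
theorem ibp (hf : PL f) (i : Fin n) : ∫ x, x i * f x ∂(gQ n) = ∫ x, pd i f x ∂(gQ n) := by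
  obtain ⟨C, k, hC, hb, hl⟩ := hf.bound
  obtain ⟨C', k', hC', hb'⟩ := hf.fderiv_bound
  set e : E n := ei i with he
  have hen : ‖e‖ = 1 := norm_ei i
  set Z := ∫ z : E n, Real.exp (-Q z) with hZ
  have hZ0 : 0 < Z := Z_pos
  -- first derivative: move `f`
  have hcQ : Continuous fun x : E n => Real.exp (-Q x) := Real.continuous_exp.comp cont_Q.neg
  have A : HasDerivAt (fun t : ℝ => ∫ x : E n, f (x + t • e) * Real.exp (-Q x))
      (∫ x : E n, pd i f x * Real.exp (-Q x)) 0 := by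
    have hmeasF : ∀ t : ℝ, AEStronglyMeasurable (fun x : E n => f (x + t • e) * Real.exp (-Q x)) volume :=
      fun t => ((hf.continuous.comp (continuous_id.add continuous_const)).mul hcQ).aestronglyMeasurable
    refine (hasDerivAt_integral_of_dominated_loc_of_lip (μ := (volume : Measure (E n)))
      (F := fun t x => f (x + t • e) * Real.exp (-Q x)) (x₀ := (0 : ℝ)) (s := Metric.ball 0 1)
      (bound := fun x => C * (3 + 2 * ‖x‖) ^ k * Real.exp (-Q x)) (F' := fun x => pd i f x * Real.exp (-Q x))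
      (Metric.ball_mem_nhds _ one_pos) ?_ ?_ ?_ ?_ ?_ ?_).2
    · exact Eventually.of_forall hmeasF
    · simp only [zero_smul, add_zero]
      refine ((int_pow_exp (n := n) k).const_mul C).mono' (hf.continuous.mul hcQ).aestronglyMeasurable
        (ae_of_all _ fun x => ?_)
      rw [norm_mul, Real.norm_eq_abs, Real.norm_eq_abs, abs_of_pos (Real.exp_pos _), ← mul_assoc]
      exact mul_le_mul_of_nonneg_right (hb x) (Real.exp_pos _).le
    · exact ((meas_pd f i).mul hcQ.measurable).aestronglyMeasurable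
    · refine ae_of_all _ fun x => ?_
      refine LipschitzOnWith.of_dist_le_mul fun t ht s hs => ?_
      rw [Metric.mem_ball, dist_zero_right, Real.norm_eq_abs] at ht hs
      have h0 : 0 ≤ C * (3 + 2 * ‖x‖) ^ k * Real.exp (-Q x) := by positivity
      rw [Real.coe_nnabs, abs_of_nonneg h0, Real.dist_eq, Real.dist_eq, ← sub_mul, abs_mul,
        abs_of_pos (Real.exp_pos _)]
      have h1 := hl (x + t • e) (x + s • e)
      have h2 : x + t • e - (x + s • e) = (t - s) • e := by rw [sub_smul]; abel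
      rw [h2, norm_smul, hen, mul_one, Real.norm_eq_abs] at h1
      have h3 : ‖x + t • e‖ ≤ ‖x‖ + 1 := by
        refine (norm_add_le _ _).trans ?_
        rw [norm_smul, hen, mul_one, Real.norm_eq_abs]
        linarith
      have h4 : ‖x + s • e‖ ≤ ‖x‖ + 1 := by
        refine (norm_add_le _ _).trans ?_
        rw [norm_smul, hen, mul_one, Real.norm_eq_abs]
        linarith
      have h5 : (1 + ‖x + t • e‖ + ‖x + s • e‖) ^ k ≤ (3 + 2 * ‖x‖) ^ k :=
        pow_le_pow_left₀ (by positivity) (by linarith) k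
      calc |f (x + t • e) - f (x + s • e)| * Real.exp (-Q x)
          ≤ (C * (1 + ‖x + t • e‖ + ‖x + s • e‖) ^ k * |t - s|) * Real.exp (-Q x) :=
            mul_le_mul_of_nonneg_right h1 (Real.exp_pos _).le
        _ ≤ (C * (3 + 2 * ‖x‖) ^ k * |t - s|) * Real.exp (-Q x) :=
            mul_le_mul_of_nonneg_right (mul_le_mul_of_nonneg_right (mul_le_mul_of_nonneg_left h5 hC)
              (abs_nonneg _)) (Real.exp_pos _).le
        _ = _ := by ring
    · have := (int_pow_exp (n := n) k).const_mul (C * 3 ^ k)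
      refine this.mono' ((continuous_const.mul ((continuous_const.add (continuous_const.mul continuous_norm)).pow k)).mul
        hcQ).aestronglyMeasurable (ae_of_all _ fun x => ?_)
      have h0 : 0 ≤ C * (3 + 2 * ‖x‖) ^ k * Real.exp (-Q x) := by positivity
      rw [Real.norm_eq_abs, abs_of_nonneg h0]
      have h5 : (3 + 2 * ‖x‖) ^ k ≤ 3 ^ k * (1 + ‖x‖) ^ k := by
        rw [← mul_pow]
        exact pow_le_pow_left₀ (by positivity) (by linarith [norm_nonneg x]) k
      calc C * (3 + 2 * ‖x‖) ^ k * Real.exp (-Q x) ≤ C * (3 ^ k * (1 + ‖x‖) ^ k) * Real.exp (-Q x) :=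
            mul_le_mul_of_nonneg_right (mul_le_mul_of_nonneg_left h5 hC) (Real.exp_pos _).le
        _ = _ := by ring
    · filter_upwards [hf.ae_diff] with x hx
      have h1 : HasDerivAt (fun t : ℝ => x + t • e) e 0 := by
        have := ((hasDerivAt_id (0 : ℝ)).smul_const e).const_add x
        simpa using this
      have hx' : HasFDerivAt f (fderiv ℝ f x) (x + (0 : ℝ) • e) := by
        simpa using hx.hasFDerivAt
      have h2 := hx'.comp_hasDerivAt (0 : ℝ) h1
      exact h2.mul_const _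
  -- second: move the density
  have B : HasDerivAt (fun t : ℝ => ∫ x : E n, f x * Real.exp (-Q (x - t • e)))
      (∫ x : E n, f x * (x i * Real.exp (-Q x))) 0 := by
    have hF' : ∀ (x : E n) (t : ℝ), HasDerivAt (fun t : ℝ => f x * Real.exp (-Q (x - t • e)))
        (f x * ((x - t • e) i * Real.exp (-Q (x - t • e)))) t := by
      intro x t
      have h1 := (Q_hasDeriv x i t).neg.exp.const_mul (f x)
      have e0 : f x * ((x - t • e) i * Real.exp (-Q (x - t • e)))
          = f x * (Real.exp (-Q (x - t • ei i)) * - -((x - t • ei i) i)) := by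
        rw [he]; ring
      rw [e0]
      exact h1
    have := (hasDerivAt_integral_of_dominated_loc_of_deriv_le (μ := (volume : Measure (E n)))
      (F := fun t x => f x * Real.exp (-Q (x - t • e))) (x₀ := (0 : ℝ)) (s := Metric.ball 0 1)
      (F' := fun t x => f x * ((x - t • e) i * Real.exp (-Q (x - t • e))))
      (bound := fun x => (C * ((k + 1).factorial : ℝ) * Real.exp 3 * Real.exp (1 / 2)) *
        Real.exp (-(1 / 8 : ℝ) * ‖x‖ ^ 2)) (Metric.ball_mem_nhds _ one_pos) ?_ ?_ ?_ ?_ ?_ ?_).2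
    · simpa using this
    · refine Eventually.of_forall fun t => ?_
      exact (hf.continuous.mul (Real.continuous_exp.comp
        (cont_Q.comp (continuous_id.sub continuous_const)).neg)).aestronglyMeasurable
    · simp only [zero_smul, sub_zero]
      refine ((int_pow_exp (n := n) k).const_mul C).mono' (hf.continuous.mul hcQ).aestronglyMeasurable
        (ae_of_all _ fun x => ?_)
      rw [norm_mul, Real.norm_eq_abs, Real.norm_eq_abs, abs_of_pos (Real.exp_pos _), ← mul_assoc]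
      exact mul_le_mul_of_nonneg_right (hb x) (Real.exp_pos _).le
    · simp only [zero_smul, sub_zero]
      exact (hf.continuous.mul ((PL.coord i).continuous.mul hcQ)).aestronglyMeasurable
    · refine ae_of_all _ fun x t ht => ?_
      rw [Metric.mem_ball, dist_zero_right, Real.norm_eq_abs] at ht
      have hxt : ‖x‖ ≤ ‖x - t • e‖ + 1 := by
        have := norm_add_le (x - t • e) (t • e)
        rw [sub_add_cancel, norm_smul, hen, mul_one, Real.norm_eq_abs] at this
        linarith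
      have hxt' : ‖x - t • e‖ ≤ 1 + ‖x‖ := by
        have := norm_sub_le x (t • e)
        rw [norm_smul, hen, mul_one, Real.norm_eq_abs] at this
        linarith
      have h1 : |(x - t • e) i| ≤ 1 + ‖x‖ := by
        rw [← Real.norm_eq_abs]
        exact (PiLp.norm_apply_le _ i).trans hxt'
      have h2 : Real.exp (-Q (x - t • e)) ≤ Real.exp (1 / 2) * Real.exp (-(1 / 4 : ℝ) * ‖x‖ ^ 2) := by
        rw [← Real.exp_add]
        refine Real.exp_le_exp.2 ?_
        unfold Q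
        nlinarith [norm_nonneg x, norm_nonneg (x - t • e), sq_nonneg (‖x - t • e‖ - 1)]
      have h3 := pow_le_exp8 (k + 1) ‖x‖ (norm_nonneg x)
      have h4 : Real.exp ((1 / 8 : ℝ) * ‖x‖ ^ 2) * Real.exp (-(1 / 4 : ℝ) * ‖x‖ ^ 2)
          = Real.exp (-(1 / 8 : ℝ) * ‖x‖ ^ 2) := by
        rw [← Real.exp_add]
        congr 1
        ring
      rw [Real.norm_eq_abs, abs_mul, abs_mul, abs_of_pos (Real.exp_pos _)]
      calc |f x| * (|(x - t • e) i| * Real.exp (-Q (x - t • e)))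
          ≤ (C * (1 + ‖x‖) ^ k) * ((1 + ‖x‖) * (Real.exp (1 / 2) * Real.exp (-(1 / 4 : ℝ) * ‖x‖ ^ 2))) :=
            mul_le_mul (hb x) (mul_le_mul h1 h2 (Real.exp_pos _).le (by positivity))
              (mul_nonneg (abs_nonneg _) (Real.exp_pos _).le) (by positivity)
        _ = C * (1 + ‖x‖) ^ (k + 1) * (Real.exp (1 / 2) * Real.exp (-(1 / 4 : ℝ) * ‖x‖ ^ 2)) := by
            rw [pow_succ]; ring
        _ ≤ C * (((k + 1).factorial : ℝ) * Real.exp 3 * Real.exp ((1 / 8 : ℝ) * ‖x‖ ^ 2)) *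
            (Real.exp (1 / 2) * Real.exp (-(1 / 4 : ℝ) * ‖x‖ ^ 2)) :=
            mul_le_mul_of_nonneg_right (mul_le_mul_of_nonneg_left h3 hC) (by positivity)
        _ = (C * ((k + 1).factorial : ℝ) * Real.exp 3 * Real.exp (1 / 2)) *
            (Real.exp ((1 / 8 : ℝ) * ‖x‖ ^ 2) * Real.exp (-(1 / 4 : ℝ) * ‖x‖ ^ 2)) := by ring
        _ = _ := by rw [h4]
    · exact int_exp8.const_mul _
    · exact ae_of_all _ fun x t _ => hF' x t
  have hEq : (fun t : ℝ => ∫ x : E n, f (x + t • e) * Real.exp (-Q x))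
      = fun t : ℝ => ∫ x : E n, f x * Real.exp (-Q (x - t • e)) := by
    funext t
    have := integral_add_right_eq_self (μ := (volume : Measure (E n)))
      (fun x : E n => f x * Real.exp (-Q (x - t • e))) (t • e)
    simpa using this
  rw [hEq] at A
  have h := A.unique B
  rw [intQ_eq, intQ_eq]
  have e1 : (fun z : E n => z i * f z * S130.dens z) = fun z => (f z * (z i * Real.exp (-Q z))) / Z := by
    funext z; unfold S130.dens; ring
  have e2 : (fun z : E n => pd i f z * S130.dens z) = fun z => (pd i f z * Real.exp (-Q z)) / Z := by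
    funext z; unfold S130.dens; ring
  rw [e1, e2, integral_div, integral_div, h]

end Vale.Agent.P254.SP.H828
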