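import Vale.Agent.P254.SP.H828.Trig

/-!
# P254, block SP: `{N v + c : v trigonometric polynomial}` is dense in `L²` of the Gaussian
-/

open MeasureTheory Matrix Finset Filter
open scoped ENNReal NNReal Topology

noncomputable section

namespace Vale.Agent.P254.SP.H828

open Vale.Agent.P227.M Vale.Agent.P254.S Vale.Agent.P254.S130

variable {n : ℕ} {f g v w : E n → ℝ}

instance : IsProbabilityMeasure (gQ n) := gQ_prob

lemma ode0 (u : ℝ → ℝ) (c : ℝ) (hu : ContinuousOn u (Set.Icc 0 1))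
    (hd : ∀ s ∈ Set.Ioo (0 : ℝ) 1, HasDerivAt u (-(s * c) * u s) s) (h0 : u 0 = 0) : u 1 = 0 := by
  have hE : ∀ s : ℝ, HasDerivAt (fun s : ℝ => Real.exp (s ^ 2 * c / 2)) (s * c * Real.exp (s ^ 2 * c / 2)) s := by
    intro s
    have h1 : HasDerivAt (fun s : ℝ => s ^ 2 * c / 2) (s * c) s :=
      (((hasDerivAt_pow 2 s).mul_const c).div_const 2).congr_deriv (by push_cast; ring)
    exact h1.exp.congr_deriv (by ring)
  have hcE : Continuous fun s : ℝ => Real.exp (s ^ 2 * c / 2) := by fun_prop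
  obtain ⟨s, hs, hs'⟩ := exists_hasDerivAt_eq_slope (fun s : ℝ => u s * Real.exp (s ^ 2 * c / 2))
    (fun s => (-(s * c) * u s) * Real.exp (s ^ 2 * c / 2) + u s * (s * c * Real.exp (s ^ 2 * c / 2)))
    one_pos (hu.mul hcE.continuousOn) (fun s hs => (hd s hs).mul (hE s))
  have h1 : (-(s * c) * u s) * Real.exp (s ^ 2 * c / 2) + u s * (s * c * Real.exp (s ^ 2 * c / 2)) = 0 := by
    ring
  rw [h1, h0] at hs'
  have h2 : u 1 * Real.exp (1 ^ 2 * c / 2) = 0 := by
    have := hs'.symm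
    simpa using this
  rcases mul_eq_zero.1 h2 with h | h
  · exact h
  · exact absurd h (Real.exp_pos _).ne'

/-- the first moment times an `L²` function is integrable -/
lemma int_norm_mul (hf : MemLp f 2 (gQ n)) : Integrable (fun x => ‖x‖ * |f x|) (gQ n) := by
  have h1 : MemLp (fun x : E n => ‖x‖) 2 (gQ n) := by
    rw [memLp_two_iff_integrable_sq continuous_norm.aestronglyMeasurable]
    refine ((int_pow (n := n) 2)).mono' (continuous_norm.pow 2).aestronglyMeasurable (ae_of_all _ fun x => ?_)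
    rw [Real.norm_eq_abs, abs_of_nonneg (by positivity)]
    exact pow_le_pow_left₀ (norm_nonneg _) (by linarith [norm_nonneg x]) 2
  have := h1.integrable_mul hf.norm
  simpa [Pi.mul_def] using this

lemma int_L2 (hf : MemLp f 2 (gQ n)) : Integrable f (gQ n) := hf.integrable (by norm_num)

lemma cont_cs (ξ : E n) : Continuous (cs ξ) := (contDiff_cs ξ).continuous

lemma cont_sn (ξ : E n) : Continuous (sn ξ) := (contDiff_sn ξ).continuous

lemma hasDeriv_cs_int (hf : MemLp f 2 (gQ n)) (ξ : E n) (s : ℝ) :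
    HasDerivAt (fun s : ℝ => ∫ x, cs (s • ξ) x * f x ∂(gQ n))
      (∫ x, -(inner ℝ ξ x * sn (s • ξ) x) * f x ∂(gQ n)) s := by
  have hm : ∀ s : ℝ, AEStronglyMeasurable (fun x => cs (s • ξ) x * f x) (gQ n) := fun s =>
    (cont_cs _).aestronglyMeasurable.mul hf.1
  refine (hasDerivAt_integral_of_dominated_loc_of_deriv_le (μ := gQ n)
      (F := fun s x => cs (s • ξ) x * f x) (x₀ := s) (s := Set.univ)
      (F' := fun s x => -(inner ℝ ξ x * sn (s • ξ) x) * f x)
      (bound := fun x => ‖ξ‖ * (‖x‖ * |f x|)) Filter.univ_mem ?_ ?_ ?_ ?_ ?_ ?_).2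
  · exact Eventually.of_forall hm
  · refine (int_L2 hf).norm.mono' (hm s) (ae_of_all _ fun x => ?_)
    rw [norm_mul]
    have : ‖cs (s • ξ) x‖ ≤ 1 := by
      rw [Real.norm_eq_abs]; exact Real.abs_cos_le_one _
    calc ‖cs (s • ξ) x‖ * ‖f x‖ ≤ 1 * ‖f x‖ := mul_le_mul_of_nonneg_right this (norm_nonneg _)
      _ = ‖f x‖ := one_mul _
  · have h1 : Continuous fun x : E n => -(inner ℝ ξ x * sn (s • ξ) x) :=
      (((innerSL ℝ ξ).continuous).mul (cont_sn _)).neg
    exact h1.aestronglyMeasurable.mul hf.1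
  · refine ae_of_all _ fun x s _ => ?_
    have h1 : |Real.sin (inner ℝ (s • ξ) x)| ≤ 1 := Real.abs_sin_le_one _
    rw [norm_mul, norm_neg, norm_mul, Real.norm_eq_abs, Real.norm_eq_abs, Real.norm_eq_abs]
    have h2 : |inner ℝ ξ x| ≤ ‖ξ‖ * ‖x‖ := abs_real_inner_le_norm _ _
    unfold sn
    calc |inner ℝ ξ x| * |Real.sin (inner ℝ (s • ξ) x)| * |f x| ≤ (‖ξ‖ * ‖x‖) * 1 * |f x| :=
          mul_le_mul_of_nonneg_right (mul_le_mul h2 h1 (abs_nonneg _) (by positivity)) (abs_nonneg _)
      _ = _ := by ring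
  · exact (int_norm_mul hf).const_mul _
  · refine ae_of_all _ fun x s _ => ?_
    have h1 : HasDerivAt (fun s : ℝ => (inner ℝ (s • ξ) x : ℝ)) (inner ℝ ξ x) s := by
      have := (hasDerivAt_id s).mul_const (inner ℝ ξ x : ℝ)
      simpa [real_inner_smul_left] using this
    have h2 := (h1.cos).mul_const (f x)
    exact h2.congr_deriv (by unfold sn; ring)

lemma hasDeriv_sn_int (hf : MemLp f 2 (gQ n)) (ξ : E n) (s : ℝ) :
    HasDerivAt (fun s : ℝ => ∫ x, sn (s • ξ) x * f x ∂(gQ n))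
      (∫ x, (inner ℝ ξ x * cs (s • ξ) x) * f x ∂(gQ n)) s := by
  have hm : ∀ s : ℝ, AEStronglyMeasurable (fun x => sn (s • ξ) x * f x) (gQ n) := fun s =>
    (cont_sn _).aestronglyMeasurable.mul hf.1
  refine (hasDerivAt_integral_of_dominated_loc_of_deriv_le (μ := gQ n)
      (F := fun s x => sn (s • ξ) x * f x) (x₀ := s) (s := Set.univ)
      (F' := fun s x => (inner ℝ ξ x * cs (s • ξ) x) * f x)
      (bound := fun x => ‖ξ‖ * (‖x‖ * |f x|)) Filter.univ_mem ?_ ?_ ?_ ?_ ?_ ?_).2
  · exact Eventually.of_forall hm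
  · refine (int_L2 hf).norm.mono' (hm s) (ae_of_all _ fun x => ?_)
    rw [norm_mul]
    have : ‖sn (s • ξ) x‖ ≤ 1 := by
      rw [Real.norm_eq_abs]; exact Real.abs_sin_le_one _
    calc ‖sn (s • ξ) x‖ * ‖f x‖ ≤ 1 * ‖f x‖ := mul_le_mul_of_nonneg_right this (norm_nonneg _)
      _ = ‖f x‖ := one_mul _
  · have h1 : Continuous fun x : E n => (inner ℝ ξ x * cs (s • ξ) x) :=
      (((innerSL ℝ ξ).continuous).mul (cont_cs _))
    exact h1.aestronglyMeasurable.mul hf.1
  · refine ae_of_all _ fun x s _ => ?_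
    have h1 : |Real.cos (inner ℝ (s • ξ) x)| ≤ 1 := Real.abs_cos_le_one _
    rw [norm_mul, norm_mul, Real.norm_eq_abs, Real.norm_eq_abs, Real.norm_eq_abs]
    have h2 : |inner ℝ ξ x| ≤ ‖ξ‖ * ‖x‖ := abs_real_inner_le_norm _ _
    unfold cs
    calc |inner ℝ ξ x| * |Real.cos (inner ℝ (s • ξ) x)| * |f x| ≤ (‖ξ‖ * ‖x‖) * 1 * |f x| :=
          mul_le_mul_of_nonneg_right (mul_le_mul h2 h1 (abs_nonneg _) (by positivity)) (abs_nonneg _)
      _ = _ := by ring
  · exact (int_norm_mul hf).const_mul _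
  · refine ae_of_all _ fun x s _ => ?_
    have h1 : HasDerivAt (fun s : ℝ => (inner ℝ (s • ξ) x : ℝ)) (inner ℝ ξ x) s := by
      have := (hasDerivAt_id s).mul_const (inner ℝ ξ x : ℝ)
      simpa [real_inner_smul_left] using this
    have h2 := (h1.sin).mul_const (f x)
    exact h2.congr_deriv (by unfold cs; ring)

lemma int_bdd_mul (hf : MemLp f 2 (gQ n)) {h : E n → ℝ} (hh : PL h) : Integrable (fun x => h x * f x) (gQ n) := by
  have h1 : MemLp h 2 (gQ n) := by
    rw [memLp_two_iff_integrable_sq hh.meas]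
    simpa only [pow_two] using (hh.mul hh).integrable
  exact h1.integrable_mul hf

/-- an `L²` function with mean zero orthogonal to all `N v` is zero -/
theorem ortho (hf : MemLp f 2 (gQ n)) (h0 : ∫ x, f x ∂(gQ n) = 0)
    (h : ∀ v ∈ TT n, ∫ x, NN v x * f x ∂(gQ n) = 0) : f =ᵐ[gQ n] 0 := by
  have hA : ∀ ξ : E n, ∫ x, cs ξ x * f x ∂(gQ n) = 0 := by
    intro ξ
    have := ode0 (fun s : ℝ => ∫ x, cs (s • ξ) x * f x ∂(gQ n)) (‖ξ‖ ^ 2)
      (fun s _ => (hasDeriv_cs_int hf ξ s).continuousAt.continuousWithinAt) ?_ ?_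
    · simpa using this
    · intro s hs
      have h1 := hasDeriv_cs_int hf ξ s
      have h2 := h _ (cs_mem (s • ξ))
      have e1 : ∫ x, NN (cs (s • ξ)) x * f x ∂(gQ n)
          = (s ^ 2 * ‖ξ‖ ^ 2) * ∫ x, cs (s • ξ) x * f x ∂(gQ n)
            + s * ∫ x, -(inner ℝ ξ x * sn (s • ξ) x) * f x ∂(gQ n) := by
        rw [← integral_const_mul, ← integral_const_mul, ← integral_add]
        · refine integral_congr_ae (ae_of_all _ fun x => ?_)
          show NN (cs (s • ξ)) x * f x = _
          rw [NN_cs, norm_smul, Real.norm_eq_abs, mul_pow, sq_abs, real_inner_smul_left]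
          ring
        · exact (int_bdd_mul hf (TT_PL (cs_mem _))).const_mul _
        · refine Integrable.const_mul ?_ _
          have hp : PL fun x : E n => -(inner ℝ ξ x * sn (s • ξ) x) := by
            refine PL.neg (PL.mul ?_ (TT_PL (sn_mem _)))
            refine PL.of_lip (K := ‖ξ‖) fun x y => ?_
            rw [← inner_sub_right]
            exact abs_real_inner_le_norm _ _
          exact int_bdd_mul hf hp
      rw [e1] at h2
      have hs0 : s ≠ 0 := hs.1.ne'
      have h3 : ∫ x, -(inner ℝ ξ x * sn (s • ξ) x) * f x ∂(gQ n)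
          = -(s * ‖ξ‖ ^ 2) * ∫ x, cs (s • ξ) x * f x ∂(gQ n) := by
        have h4 : s * (∫ x, -(inner ℝ ξ x * sn (s • ξ) x) * f x ∂(gQ n)
          + (s * ‖ξ‖ ^ 2) * ∫ x, cs (s • ξ) x * f x ∂(gQ n)) = 0 := by
          rw [← h2]; ring
        rcases mul_eq_zero.1 h4 with h5 | h5
        · exact absurd h5 hs0
        · linarith
      rw [h3] at h1
      exact h1
    · simp only [zero_smul]
      have : (fun x => cs (0 : E n) x * f x) = f := by
        funext x; unfold cs; simp
      rw [this]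
      exact h0
  have hB : ∀ ξ : E n, ∫ x, sn ξ x * f x ∂(gQ n) = 0 := by
    intro ξ
    have := ode0 (fun s : ℝ => ∫ x, sn (s • ξ) x * f x ∂(gQ n)) (‖ξ‖ ^ 2)
      (fun s _ => (hasDeriv_sn_int hf ξ s).continuousAt.continuousWithinAt) ?_ ?_
    · simpa using this
    · intro s hs
      have h1 := hasDeriv_sn_int hf ξ s
      have h2 := h _ (sn_mem (s • ξ))
      have e1 : ∫ x, NN (sn (s • ξ)) x * f x ∂(gQ n)
          = (s ^ 2 * ‖ξ‖ ^ 2) * ∫ x, sn (s • ξ) x * f x ∂(gQ n)
            + s * ∫ x, (inner ℝ ξ x * cs (s • ξ) x) * f x ∂(gQ n) := by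
        rw [← integral_const_mul, ← integral_const_mul, ← integral_add]
        · refine integral_congr_ae (ae_of_all _ fun x => ?_)
          show NN (sn (s • ξ)) x * f x = _
          rw [NN_sn, norm_smul, Real.norm_eq_abs, mul_pow, sq_abs, real_inner_smul_left]
          ring
        · exact (int_bdd_mul hf (TT_PL (sn_mem _))).const_mul _
        · refine Integrable.const_mul ?_ _
          have hp : PL fun x : E n => (inner ℝ ξ x * cs (s • ξ) x) := by
            refine (PL.mul ?_ (TT_PL (cs_mem _)))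
            refine PL.of_lip (K := ‖ξ‖) fun x y => ?_
            rw [← inner_sub_right]
            exact abs_real_inner_le_norm _ _
          exact int_bdd_mul hf hp
      rw [e1] at h2
      have hs0 : s ≠ 0 := hs.1.ne'
      have h3 : ∫ x, (inner ℝ ξ x * cs (s • ξ) x) * f x ∂(gQ n)
          = -(s * ‖ξ‖ ^ 2) * ∫ x, sn (s • ξ) x * f x ∂(gQ n) := by
        have h4 : s * (∫ x, (inner ℝ ξ x * cs (s • ξ) x) * f x ∂(gQ n)
          + (s * ‖ξ‖ ^ 2) * ∫ x, sn (s • ξ) x * f x ∂(gQ n)) = 0 := by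
          rw [← h2]; ring
        rcases mul_eq_zero.1 h4 with h5 | h5
        · exact absurd h5 hs0
        · linarith
      rw [h3] at h1
      exact h1
    · have : (fun x => sn ((0 : ℝ) • ξ) x * f x) = fun _ => 0 := by
        funext x; unfold sn; simp
      simp only [this, integral_zero]
  -- the two measures
  have hfi : Integrable f (gQ n) := int_L2 hf
  set P : Measure (E n) := (gQ n).withDensity fun x => ENNReal.ofReal (f x) with hP
  set M : Measure (E n) := (gQ n).withDensity fun x => ENNReal.ofReal (-f x) with hM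
  have hPf : IsFiniteMeasure P := isFiniteMeasure_withDensity_ofReal hfi.2
  have hMf : IsFiniteMeasure M := isFiniteMeasure_withDensity_ofReal hfi.neg.2
  have hPM : P = M := by
    refine Measure.ext_of_charFun ?_
    funext t
    rw [charFun_apply, charFun_apply]
    have hmf : AEMeasurable (fun x => ENNReal.ofReal (f x)) (gQ n) := hf.1.aemeasurable.ennreal_ofReal
    have hmf' : AEMeasurable (fun x => ENNReal.ofReal (-f x)) (gQ n) := hf.1.aemeasurable.neg.ennreal_ofReal
    have e1 := integral_withDensity_eq_integral_toReal_smul₀ (μ := gQ n) hmf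
      (ae_of_all _ fun x => ENNReal.ofReal_lt_top) (fun x : E n => Complex.exp ((inner ℝ x t : ℝ) * Complex.I))
    have e2 := integral_withDensity_eq_integral_toReal_smul₀ (μ := gQ n) hmf'
      (ae_of_all _ fun x => ENNReal.ofReal_lt_top) (fun x : E n => Complex.exp ((inner ℝ x t : ℝ) * Complex.I))
    rw [hP, hM, e1, e2]
    have hexp : Continuous fun x : E n => Complex.exp ((inner ℝ x t : ℝ) * Complex.I) := by fun_prop
    have hnorm : ∀ x : E n, ‖Complex.exp ((inner ℝ x t : ℝ) * Complex.I)‖ = 1 := fun x =>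
      Complex.norm_exp_ofReal_mul_I _
    have i1 : Integrable (fun x : E n => (ENNReal.ofReal (f x)).toReal • Complex.exp ((inner ℝ x t : ℝ) * Complex.I)) (gQ n) := by
      refine hfi.norm.mono' (hmf.ennreal_toReal.aestronglyMeasurable.smul hexp.aestronglyMeasurable)
        (ae_of_all _ fun x => ?_)
      rw [norm_smul, hnorm, mul_one, Real.norm_eq_abs, Real.norm_eq_abs, abs_of_nonneg ENNReal.toReal_nonneg,
        ENNReal.toReal_ofReal']
      exact max_le (le_abs_self _) (abs_nonneg _)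
    have i2 : Integrable (fun x : E n => (ENNReal.ofReal (-f x)).toReal • Complex.exp ((inner ℝ x t : ℝ) * Complex.I)) (gQ n) := by
      refine hfi.norm.mono' (hmf'.ennreal_toReal.aestronglyMeasurable.smul hexp.aestronglyMeasurable)
        (ae_of_all _ fun x => ?_)
      rw [norm_smul, hnorm, mul_one, Real.norm_eq_abs, Real.norm_eq_abs, abs_of_nonneg ENNReal.toReal_nonneg,
        ENNReal.toReal_ofReal']
      exact max_le (neg_le_abs _) (abs_nonneg _)
    rw [← sub_eq_zero, ← integral_sub i1 i2]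
    have e3 : ∀ x : E n, (ENNReal.ofReal (f x)).toReal • Complex.exp ((inner ℝ x t : ℝ) * Complex.I)
        - (ENNReal.ofReal (-f x)).toReal • Complex.exp ((inner ℝ x t : ℝ) * Complex.I)
        = ((cs t x * f x : ℝ) : ℂ) + ((sn t x * f x : ℝ) : ℂ) * Complex.I := by
      intro x
      rw [← sub_smul, ENNReal.toReal_ofReal', ENNReal.toReal_ofReal']
      have h1 : max (f x) 0 - max (-f x) 0 = f x := by
        rcases le_total 0 (f x) with h | h
        · rw [max_eq_left h, max_eq_right (by linarith)]; ring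
        · rw [max_eq_right h, max_eq_left (by linarith)]; ring
      rw [h1, Complex.exp_mul_I]
      unfold cs sn
      rw [real_inner_comm]
      push_cast
      rw [Complex.real_smul]
      ring
    have i3 : Integrable (fun x : E n => ((cs t x * f x : ℝ) : ℂ)) (gQ n) :=
      (int_bdd_mul hf (TT_PL (cs_mem t))).ofReal
    have i4 : Integrable (fun x : E n => ((sn t x * f x : ℝ) : ℂ) * Complex.I) (gQ n) :=
      (int_bdd_mul hf (TT_PL (sn_mem t))).ofReal.mul_const _
    have e4 : ∫ x, ((cs t x * f x : ℝ) : ℂ) ∂(gQ n) = ((∫ x, cs t x * f x ∂(gQ n) : ℝ) : ℂ) := integral_ofReal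
    have e5 : ∫ x, ((sn t x * f x : ℝ) : ℂ) ∂(gQ n) = ((∫ x, sn t x * f x ∂(gQ n) : ℝ) : ℂ) := integral_ofReal
    rw [integral_congr_ae (ae_of_all _ e3), integral_add i3 i4, integral_mul_const, e4, e5, hA t, hB t]
    simp
  have h1 : (fun x => ENNReal.ofReal (f x)) =ᵐ[gQ n] fun x => ENNReal.ofReal (-f x) := by
    have hmf : AEMeasurable (fun x => ENNReal.ofReal (f x)) (gQ n) := hf.1.aemeasurable.ennreal_ofReal
    have hmf' : AEMeasurable (fun x => ENNReal.ofReal (-f x)) (gQ n) := hf.1.aemeasurable.neg.ennreal_ofReal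
    refine (withDensity_eq_iff hmf hmf' ?_).1 hPM
    have := hfi.2
    exact (lt_of_le_of_lt (lintegral_mono fun x => by
      rw [← ofReal_norm]
      exact ENNReal.ofReal_le_ofReal (le_abs_self _)) this).ne
  filter_upwards [h1] with x hx
  show f x = 0
  rcases lt_trichotomy (f x) 0 with h | h | h
  · rw [ENNReal.ofReal_of_nonpos h.le] at hx
    have : 0 < -f x := by linarith
    exact absurd hx.symm (ENNReal.ofReal_pos.2 this).ne'
  · exact h
  · rw [ENNReal.ofReal_of_nonpos (by linarith : -f x ≤ 0)] at hx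
    exact absurd hx (ENNReal.ofReal_pos.2 h).ne'

lemma memLp_PL (hf : PL f) : MemLp f 2 (gQ n) := by
  rw [memLp_two_iff_integrable_sq hf.meas]
  simpa only [pow_two] using (hf.mul hf).integrable

/-- the space `{N v + c}` in `L²` -/
def WW (n : ℕ) : Submodule ℝ (Lp ℝ 2 (gQ n)) where
  carrier := {g | ∃ v ∈ TT n, ∃ c : ℝ, g =ᵐ[gQ n] fun x => NN v x + c}
  zero_mem' := ⟨0, (TT n).zero_mem, 0, by
    have h : ∀ x, NN (0 : E n → ℝ) x = 0 := fun x => by
      have := NN_smul (n := n) 0 (TT n).zero_mem x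
      simpa using this
    filter_upwards [Lp.coeFn_zero ℝ 2 (gQ n)] with x hx
    rw [hx, h]
    simp⟩
  add_mem' := by
    rintro a b ⟨v, hv, c, hc⟩ ⟨w, hw, d, hd⟩
    refine ⟨v + w, (TT n).add_mem hv hw, c + d, ?_⟩
    filter_upwards [Lp.coeFn_add a b, hc, hd] with x hx h1 h2
    rw [hx, Pi.add_apply, h1, h2, NN_add hv hw]
    ring
  smul_mem' := by
    rintro r a ⟨v, hv, c, hc⟩
    refine ⟨r • v, (TT n).smul_mem r hv, r * c, ?_⟩
    filter_upwards [Lp.coeFn_smul r a, hc] with x hx h1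
    rw [hx, Pi.smul_apply, h1, NN_smul r hv, smul_eq_mul]
    ring

theorem WW_dense (n : ℕ) : (WW n).topologicalClosure = ⊤ := by
  rw [Submodule.topologicalClosure_eq_top_iff, Submodule.eq_bot_iff]
  intro g hg
  rw [Submodule.mem_orthogonal] at hg
  have hgL : MemLp (g : E n → ℝ) 2 (gQ n) := Lp.memLp g
  have key : ∀ v ∈ TT n, ∀ c : ℝ, ∫ x, (NN v x + c) * g x ∂(gQ n) = 0 := by
    intro v hv c
    have hp : PL fun x => NN v x + c := (NN_PL hv).add (PL.const c)
    have hm := memLp_PL hp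
    have h1 := hg (hm.toLp _) ⟨v, hv, c, hm.coeFn_toLp⟩
    rw [L2.inner_def] at h1
    rw [← h1]
    refine integral_congr_ae ?_
    filter_upwards [hm.coeFn_toLp] with x hx
    rw [hx]
    simp [mul_comm]
  have hN0 : ∀ x, NN (0 : E n → ℝ) x = 0 := fun x => by
    have := NN_smul (n := n) 0 (TT n).zero_mem x
    simpa using this
  have h0 : ∫ x, g x ∂(gQ n) = 0 := by
    have := key 0 (TT n).zero_mem 1
    simpa [hN0] using this
  have h1 : (g : E n → ℝ) =ᵐ[gQ n] 0 := ortho hgL h0 fun v hv => by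
    have := key v hv 0
    simpa using this
  exact (Lp.eq_zero_iff_ae_eq_zero).2 h1

/-- density, in integral form -/
theorem dens_NN (hf : MemLp f 2 (gQ n)) {ε : ℝ} (hε : 0 < ε) :
    ∃ v ∈ TT n, ∃ c : ℝ, ∫ x, (f x - (NN v x + c)) ^ 2 ∂(gQ n) < ε := by
  have h1 : hf.toLp f ∈ (WW n).topologicalClosure := by
    rw [WW_dense]; trivial
  have h2 := Metric.mem_closure_iff.1 (show hf.toLp f ∈ closure (WW n : Set (Lp ℝ 2 (gQ n))) from h1)
    (Real.sqrt ε) (Real.sqrt_pos.2 hε)
  obtain ⟨g, ⟨v, hv, c, hc⟩, hg⟩ := h2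
  refine ⟨v, hv, c, ?_⟩
  rw [dist_eq_norm] at hg
  have h3 : ‖hf.toLp f - g‖ ^ 2 < ε := by
    have := pow_lt_pow_left₀ hg (norm_nonneg _) (two_ne_zero)
    rwa [Real.sq_sqrt hε.le] at this
  have h4 : ‖hf.toLp f - g‖ ^ 2 = ∫ x, (f x - (NN v x + c)) ^ 2 ∂(gQ n) := by
    rw [← real_inner_self_eq_norm_sq, L2.inner_def]
    refine integral_congr_ae ?_
    filter_upwards [Lp.coeFn_sub (hf.toLp f) g, hf.coeFn_toLp, hc] with x hx h5 h6
    rw [hx, Pi.sub_apply, h5, h6]
    simp [pow_two]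
  rwa [h4] at h3

end Vale.Agent.P254.SP.H828
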