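import Vale.Agent.P254.SP.H828.Dens
import Vale.Agent.P254.SP.IfaceA

/-!
# P254, block SP: the dual covariance bound, first and second order Poincaré inequalities of the Gaussian
-/

open MeasureTheory Matrix Finset Filter
open scoped ENNReal NNReal Topology

noncomputable section

namespace Vale.Agent.P254.SP.H828

open Vale.Agent.P227.M Vale.Agent.P254.S Vale.Agent.P254.S130

variable {n : ℕ} {f g v w : E n → ℝ}

lemma PL.int_mul (hf : PL f) (hg : PL g) : Integrable (fun x => f x * g x) (gQ n) := (hf.mul hg).integrable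

lemma PL.int_sq (hf : PL f) : Integrable (fun x => f x ^ 2) (gQ n) := by
  simpa only [pow_two] using (hf.mul hf).integrable

lemma int_pd_mul_pd (hf : PL f) (hg : PL g) (i j : Fin n) :
    Integrable (fun x => pd i f x * pd j g x) (gQ n) :=
  ((hf.pg_pd i).mul (hg.pg_pd j)).integrable
    ((meas_pd f i).mul (meas_pd g j)).aestronglyMeasurable

lemma int_pd_sq (hf : PL f) (i : Fin n) : Integrable (fun x => pd i f x ^ 2) (gQ n) := by
  simpa only [pow_two] using int_pd_mul_pd hf hf i i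

lemma int_mul_pd (hf : PL f) (hg : PL g) (j : Fin n) :
    Integrable (fun x => f x * pd j g x) (gQ n) :=
  (hf.pg.mul (hg.pg_pd j)).integrable
    (hf.meas.mul (meas_pd g j).aestronglyMeasurable)

/-- the mean of `N v` is zero -/
lemma NN_mean (hv : v ∈ TT n) : ∫ x, NN v x ∂(gQ n) = 0 := by
  have h := NN_ibp hv (PL.const (n := n) 1)
  simp only [pd_const, mul_zero, integral_zero, Finset.sum_const_zero, mul_one] at h
  exact h

/-- **dual form of the variance** (`f` locally Lipschitz with polynomial growth) -/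
theorem dual_int (hf : PL f) (C : ℝ)
    (h : ∀ v ∈ TT n, 2 * (∫ x, ∑ i, pd i f x * pd i v x ∂(gQ n)) - ∫ x, ∑ i, pd i v x ^ 2 ∂(gQ n)
      - ∫ x, ∑ i, ∑ j, pd j (pd i v) x ^ 2 ∂(gQ n) ≤ C) :
    ∫ x, f x ^ 2 ∂(gQ n) - (∫ x, f x ∂(gQ n)) ^ 2 ≤ C := by
  refine le_of_forall_pos_le_add fun ε hε => ?_
  obtain ⟨v, hv, c, hlt⟩ := dens_NN (memLp_PL hf) hε
  have hN := NN_PL hv
  set m := ∫ x, f x ∂(gQ n) with hm
  have i1 : Integrable (fun x => f x ^ 2) (gQ n) := hf.int_sq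
  have i2 : Integrable (fun x => NN v x * f x) (gQ n) := hN.int_mul hf
  have i3 : Integrable (fun x => NN v x ^ 2) (gQ n) := hN.int_sq
  have i4 : Integrable f (gQ n) := hf.integrable
  have i5 : Integrable (NN v) (gQ n) := hN.integrable
  have e1 : ∫ x, (f x - (NN v x + c)) ^ 2 ∂(gQ n)
      = ∫ x, f x ^ 2 ∂(gQ n) - 2 * ∫ x, NN v x * f x ∂(gQ n) + ∫ x, NN v x ^ 2 ∂(gQ n)
        - 2 * c * m + c ^ 2 := by
    have e2 : (fun x => (f x - (NN v x + c)) ^ 2)
        = fun x => ((((f x ^ 2 - 2 * (NN v x * f x)) + NN v x ^ 2) - 2 * c * f x) + 2 * c * NN v x) + c ^ 2 := by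
      funext x; ring
    rw [e2, integral_add, integral_add, integral_sub, integral_add, integral_sub, integral_const_mul,
      integral_const_mul, integral_const_mul, NN_mean hv, ← hm]
    · simp
    · exact i1
    · exact i2.const_mul 2
    · exact i1.sub (i2.const_mul 2)
    · exact i3
    · exact (i1.sub (i2.const_mul 2)).add i3
    · exact i4.const_mul _
    · exact ((i1.sub (i2.const_mul 2)).add i3).sub (i4.const_mul _)
    · exact i5.const_mul _
    · exact (((i1.sub (i2.const_mul 2)).add i3).sub (i4.const_mul _)).add (i5.const_mul _)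
    · exact integrable_const _
  have e3 : ∫ x, NN v x * f x ∂(gQ n) = ∫ x, ∑ i, pd i f x * pd i v x ∂(gQ n) := by
    rw [NN_ibp hv hf, integral_finsetSum _ fun i _ => int_pd_mul_pd hf (TT_PL hv) i i]
    simp only [mul_comm]
  have e4 := bochner hv
  have h5 := h v hv
  rw [← e3] at h5
  rw [e1] at hlt
  nlinarith [sq_nonneg (m - c)]

/-- the same in terms of `Ex Q` -/
theorem dual (hf : PL f) (C : ℝ)
    (h : ∀ v ∈ TT n, 2 * Ex Q (fun x => ∑ i, pd i f x * pd i v x) - Ex Q (fun x => ∑ i, pd i v x ^ 2)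
      - Ex Q (fun x => ∑ i, ∑ j, pd j (pd i v) x ^ 2) ≤ C) :
    Ex Q (fun x => f x ^ 2) - (Ex Q f) ^ 2 ≤ C := by
  simp only [Ex_eq] at h ⊢
  exact dual_int hf C h

/-- Gaussian Poincaré inequality -/
theorem poi_int (hf : PL f) :
    ∫ x, f x ^ 2 ∂(gQ n) - (∫ x, f x ∂(gQ n)) ^ 2 ≤ ∫ x, ∑ i, pd i f x ^ 2 ∂(gQ n) := by
  refine dual_int hf _ fun v hv => ?_
  have hv' := TT_PL hv
  have i1 : Integrable (fun x => ∑ i, pd i f x * pd i v x) (gQ n) :=
    integrable_finsetSum _ fun i _ => int_pd_mul_pd hf hv' i i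
  have i2 : Integrable (fun x => ∑ i, pd i v x ^ 2) (gQ n) := integrable_finsetSum _ fun i _ => int_pd_sq hv' i
  have i3 : Integrable (fun x => ∑ i, pd i f x ^ 2) (gQ n) := integrable_finsetSum _ fun i _ => int_pd_sq hf i
  have h1 : 0 ≤ ∫ x, ∑ i, ∑ j, pd j (pd i v) x ^ 2 ∂(gQ n) :=
    integral_nonneg fun x => Finset.sum_nonneg fun i _ => Finset.sum_nonneg fun j _ => sq_nonneg _
  have h2 : 0 ≤ ∫ x, ∑ i, (pd i f x - pd i v x) ^ 2 ∂(gQ n) :=
    integral_nonneg fun x => Finset.sum_nonneg fun i _ => sq_nonneg _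
  have e : ∫ x, ∑ i, (pd i f x - pd i v x) ^ 2 ∂(gQ n)
      = ∫ x, ∑ i, pd i f x ^ 2 ∂(gQ n) - 2 * (∫ x, ∑ i, pd i f x * pd i v x ∂(gQ n))
        + ∫ x, ∑ i, pd i v x ^ 2 ∂(gQ n) := by
    have i6 : Integrable (fun x => ∑ i, pd i f x ^ 2 - 2 * ∑ i, pd i f x * pd i v x) (gQ n) :=
      i3.sub (i1.const_mul 2)
    rw [← integral_const_mul, ← integral_sub i3 (i1.const_mul 2), ← integral_add i6 i2]
    refine integral_congr_ae (ae_of_all _ fun x => ?_)
    show ∑ i, (pd i f x - pd i v x) ^ 2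
      = ∑ i, pd i f x ^ 2 - 2 * ∑ i, pd i f x * pd i v x + ∑ i, pd i v x ^ 2
    rw [Finset.mul_sum, ← Finset.sum_sub_distrib, ← Finset.sum_add_distrib]
    exact Finset.sum_congr rfl fun i _ => by ring
  linarith

/-- second order Poincaré inequality -/
theorem herm_int (hf : PL f) :
    ∫ x, f x ^ 2 ∂(gQ n) - (∫ x, f x ∂(gQ n)) ^ 2
      ≤ 1 / 2 * ∑ i, (∫ x, pd i f x ∂(gQ n)) ^ 2 + 1 / 2 * ∫ x, ∑ i, pd i f x ^ 2 ∂(gQ n) := by
  refine dual_int hf _ fun v hv => ?_
  have hv' := TT_PL hv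
  have i1 : ∀ i : Fin n, Integrable (fun x => pd i f x * pd i v x) (gQ n) := fun i =>
    int_pd_mul_pd hf hv' i i
  have i2 : ∀ i : Fin n, Integrable (fun x => pd i v x ^ 2) (gQ n) := fun i => int_pd_sq hv' i
  have i3 : ∀ i : Fin n, Integrable (fun x => pd i f x ^ 2) (gQ n) := fun i => int_pd_sq hf i
  have i4 : ∀ i : Fin n, Integrable (fun x => ∑ j, pd j (pd i v) x ^ 2) (gQ n) := fun i =>
    integrable_finsetSum _ fun j _ => int_pd_sq (TT_PL (TT_pd hv i)) j
  rw [integral_finsetSum _ fun i _ => i1 i, integral_finsetSum _ fun i _ => i2 i,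
    integral_finsetSum _ fun i _ => i3 i, integral_finsetSum _ fun i _ => i4 i, Finset.mul_sum,
    Finset.mul_sum, Finset.mul_sum, ← Finset.sum_sub_distrib, ← Finset.sum_sub_distrib,
    ← Finset.sum_add_distrib]
  refine Finset.sum_le_sum fun i _ => ?_
  have hp := poi_int (TT_PL (TT_pd hv i))
  set a := ∫ x, pd i f x ∂(gQ n) with ha
  set b := ∫ x, pd i v x ∂(gQ n) with hb
  -- `0 ≤ E (φ - 2 ψ)²`, `φ = ∂f - a`, `ψ = ∂v - b`
  have h2 : 0 ≤ ∫ x, ((pd i f x - a) - 2 * (pd i v x - b)) ^ 2 ∂(gQ n) :=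
    integral_nonneg fun x => sq_nonneg _
  have j1 : Integrable (fun x => pd i f x) (gQ n) := hf.integrable_pd i
  have j2 : Integrable (fun x => pd i v x) (gQ n) := hv'.integrable_pd i
  have e : ∫ x, ((pd i f x - a) - 2 * (pd i v x - b)) ^ 2 ∂(gQ n)
      = ∫ x, pd i f x ^ 2 ∂(gQ n) - 4 * (∫ x, pd i f x * pd i v x ∂(gQ n))
        + 4 * (∫ x, pd i v x ^ 2 ∂(gQ n)) - 2 * (a - 2 * b) * a + 4 * (a - 2 * b) * b + (a - 2 * b) ^ 2 := by
    have e2 : (fun x => ((pd i f x - a) - 2 * (pd i v x - b)) ^ 2)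
        = fun x => (((pd i f x ^ 2 - 4 * (pd i f x * pd i v x)) + 4 * pd i v x ^ 2)
          - 2 * (a - 2 * b) * pd i f x) + 4 * (a - 2 * b) * pd i v x + (a - 2 * b) ^ 2 := by
      funext x; ring
    rw [e2, integral_add, integral_add, integral_sub, integral_add, integral_sub, integral_const_mul,
      integral_const_mul, integral_const_mul, integral_const_mul, ← ha, ← hb]
    · simp
    · exact i3 i
    · exact (i1 i).const_mul _
    · exact (i3 i).sub ((i1 i).const_mul _)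
    · exact (i2 i).const_mul _
    · exact ((i3 i).sub ((i1 i).const_mul _)).add ((i2 i).const_mul _)
    · exact j1.const_mul _
    · exact (((i3 i).sub ((i1 i).const_mul _)).add ((i2 i).const_mul _)).sub (j1.const_mul _)
    · exact j2.const_mul _
    · exact ((((i3 i).sub ((i1 i).const_mul _)).add ((i2 i).const_mul _)).sub (j1.const_mul _)).add
        (j2.const_mul _)
    · exact integrable_const _
  nlinarith [sq_nonneg (a - b)]

/-- variance of a function with mean zero and mean gradient zero: `2 E F² ≤ E |∇F|²` -/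
theorem gap2 (hf : PL f) (h0 : ∫ x, f x ∂(gQ n) = 0) (h1 : ∀ i, ∫ x, pd i f x ∂(gQ n) = 0) :
    2 * ∫ x, f x ^ 2 ∂(gQ n) ≤ ∫ x, ∑ i, pd i f x ^ 2 ∂(gQ n) := by
  have h := herm_int hf
  simp only [h0, h1] at h
  simp at h
  linarith

/-- **dual bound with trial fields** `Y` (locally Lipschitz, polynomial growth) -/
theorem cov_int (hf : PL f) (Y : Fin n → Fin n → E n → ℝ) (hY : ∀ a i, PL (Y a i)) :
    ∫ x, f x ^ 2 ∂(gQ n) - (∫ x, f x ∂(gQ n)) ^ 2
      ≤ ∫ x, ∑ i, (pd i f x - ∑ a, (x a * Y a i x - pd a (Y a i) x)) ^ 2 ∂(gQ n)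
        + ∫ x, ∑ a, ∑ i, Y a i x ^ 2 ∂(gQ n) := by
  refine dual_int hf _ fun v hv => ?_
  have hv' := TT_PL hv
  -- the divergence part
  set X : Fin n → E n → ℝ := fun i x => pd i f x - ∑ a, (x a * Y a i x - pd a (Y a i) x) with hX
  have hDm : ∀ a i, PG (fun x : E n => x a * Y a i x - pd a (Y a i) x) ∧
      AEStronglyMeasurable (fun x : E n => x a * Y a i x - pd a (Y a i) x) (gQ n) := fun a i =>
    ⟨(((PL.coord a).mul (hY a i)).pg).sub ((hY a i).pg_pd a),
      ((PL.coord a).mul (hY a i)).meas.sub (meas_pd _ _).aestronglyMeasurable⟩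
  have hXm : ∀ i, PG (X i) ∧ AEStronglyMeasurable (X i) (gQ n) := fun i =>
    ⟨(hf.pg_pd i).sub (PG.sum _ fun a _ => (hDm a i).1),
      (meas_pd _ _).aestronglyMeasurable.sub (Finset.aestronglyMeasurable_fun_sum _ fun a _ => (hDm a i).2)⟩
  have k1 : ∀ i, Integrable (fun x => X i x * pd i v x) (gQ n) := fun i =>
    ((hXm i).1.mul (hv'.pg_pd i)).integrable ((hXm i).2.mul (meas_pd _ _).aestronglyMeasurable)
  have k2 : ∀ a i, Integrable (fun x => Y a i x * pd a (pd i v) x) (gQ n) := fun a i =>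
    int_mul_pd (hY a i) (TT_PL (TT_pd hv i)) a
  have k3 : ∀ a i, Integrable (fun x => (x a * Y a i x - pd a (Y a i) x) * pd i v x) (gQ n) := fun a i =>
    ((hDm a i).1.mul (hv'.pg_pd i)).integrable ((hDm a i).2.mul (meas_pd _ _).aestronglyMeasurable)
  have e1 : ∫ x, ∑ i, pd i f x * pd i v x ∂(gQ n)
      = ∑ i, ∫ x, X i x * pd i v x ∂(gQ n) + ∑ i, ∑ a, ∫ x, Y a i x * pd a (pd i v) x ∂(gQ n) := by
    rw [integral_finsetSum _ fun i _ => int_pd_mul_pd hf hv' i i, ← Finset.sum_add_distrib]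
    refine Finset.sum_congr rfl fun i _ => ?_
    have e2 : ∑ a, ∫ x, Y a i x * pd a (pd i v) x ∂(gQ n)
        = ∫ x, ∑ a, (x a * Y a i x - pd a (Y a i) x) * pd i v x ∂(gQ n) := by
      rw [integral_finsetSum _ fun a _ => k3 a i]
      refine Finset.sum_congr rfl fun a _ => ?_
      exact (ibp2 (hY a i) (TT_PL (TT_pd hv i)) a).symm
    rw [e2, ← integral_add (k1 i) (integrable_finsetSum _ fun a _ => k3 a i)]
    refine integral_congr_ae (ae_of_all _ fun x => ?_)
    show pd i f x * pd i v x = X i x * pd i v x + ∑ a, (x a * Y a i x - pd a (Y a i) x) * pd i v x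
    rw [← Finset.sum_mul, hX]
    ring
  have i1 : ∀ i : Fin n, Integrable (fun x => X i x ^ 2) (gQ n) := fun i => by
    have := ((hXm i).1.mul (hXm i).1).integrable ((hXm i).2.mul (hXm i).2)
    simpa only [pow_two] using this
  have i2 : ∀ i : Fin n, Integrable (fun x => pd i v x ^ 2) (gQ n) := fun i => int_pd_sq hv' i
  have i4 : ∀ a i : Fin n, Integrable (fun x => pd a (pd i v) x ^ 2) (gQ n) := fun a i =>
    int_pd_sq (TT_PL (TT_pd hv i)) a
  have i5 : ∀ a i : Fin n, Integrable (fun x => Y a i x ^ 2) (gQ n) := fun a i => (hY a i).int_sq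
  have s1 : ∀ i : Fin n, 2 * ∫ x, X i x * pd i v x ∂(gQ n)
      ≤ ∫ x, X i x ^ 2 ∂(gQ n) + ∫ x, pd i v x ^ 2 ∂(gQ n) := fun i => by
    rw [← integral_const_mul, ← integral_add (i1 i) (i2 i)]
    refine integral_mono ((k1 i).const_mul 2) ((i1 i).add (i2 i)) fun x => ?_
    show 2 * (X i x * pd i v x) ≤ X i x ^ 2 + pd i v x ^ 2
    nlinarith [sq_nonneg (X i x - pd i v x)]
  have s2 : ∀ a i : Fin n, 2 * ∫ x, Y a i x * pd a (pd i v) x ∂(gQ n)
      ≤ ∫ x, Y a i x ^ 2 ∂(gQ n) + ∫ x, pd a (pd i v) x ^ 2 ∂(gQ n) := fun a i => by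
    rw [← integral_const_mul, ← integral_add (i5 a i) (i4 a i)]
    refine integral_mono ((k2 a i).const_mul 2) ((i5 a i).add (i4 a i)) fun x => ?_
    show 2 * (Y a i x * pd a (pd i v) x) ≤ Y a i x ^ 2 + pd a (pd i v) x ^ 2
    nlinarith [sq_nonneg (Y a i x - pd a (pd i v) x)]
  have t1 : ∫ x, ∑ i, pd i v x ^ 2 ∂(gQ n) = ∑ i, ∫ x, pd i v x ^ 2 ∂(gQ n) :=
    integral_finsetSum _ fun i _ => i2 i
  have t2 : ∫ x, ∑ i, ∑ j, pd j (pd i v) x ^ 2 ∂(gQ n) = ∑ i, ∑ j, ∫ x, pd j (pd i v) x ^ 2 ∂(gQ n) := by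
    rw [integral_finsetSum _ fun i _ => integrable_finsetSum _ fun j _ => i4 j i]
    exact Finset.sum_congr rfl fun i _ => integral_finsetSum _ fun j _ => i4 j i
  have t3 : ∫ x, ∑ i, X i x ^ 2 ∂(gQ n) = ∑ i, ∫ x, X i x ^ 2 ∂(gQ n) :=
    integral_finsetSum _ fun i _ => i1 i
  have t4 : ∫ x, ∑ a, ∑ i, Y a i x ^ 2 ∂(gQ n) = ∑ i, ∑ a, ∫ x, Y a i x ^ 2 ∂(gQ n) := by
    rw [integral_finsetSum _ fun i _ => integrable_finsetSum _ fun j _ => i5 i j, Finset.sum_comm]
    exact Finset.sum_congr rfl fun i _ => integral_finsetSum _ fun j _ => i5 i j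
  have u1 : ∑ i, 2 * ∫ x, X i x * pd i v x ∂(gQ n)
      ≤ ∑ i, (∫ x, X i x ^ 2 ∂(gQ n) + ∫ x, pd i v x ^ 2 ∂(gQ n)) := Finset.sum_le_sum fun i _ => s1 i
  have u2 : ∑ i, ∑ a, 2 * ∫ x, Y a i x * pd a (pd i v) x ∂(gQ n)
      ≤ ∑ i, ∑ a, (∫ x, Y a i x ^ 2 ∂(gQ n) + ∫ x, pd a (pd i v) x ^ 2 ∂(gQ n)) :=
    Finset.sum_le_sum fun i _ => Finset.sum_le_sum fun a _ => s2 a i
  simp only [Finset.sum_add_distrib, ← Finset.mul_sum] at u1 u2
  rw [e1, t1, t2, t4]
  change _ ≤ ∫ x, ∑ i, X i x ^ 2 ∂(gQ n) + _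
  rw [t3]
  linarith

/-! ### the statements of the interfaces -/

lemma PL.of_lipschitzWith {K : NNReal} (h : LipschitzWith K f) : PL f :=
  PL.of_lip (K := K) fun x y => by
    rw [← Real.norm_eq_abs, ← dist_eq_norm, ← dist_eq_norm]
    exact h.dist_le_mul x y

theorem stmtPoi : StmtPoi := fun n f K hf => by
  simp only [Ex_eq]
  exact poi_int (PL.of_lipschitzWith hf)

theorem stmtHermL : SP.StmtHermL := fun n f K hf => by
  simp only [Ex_eq]
  exact herm_int (PL.of_lipschitzWith hf)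

theorem stmtHerm : StmtHerm := fun n f B hf hB => by
  have hd : Differentiable ℝ f := hf.differentiable (by simp)
  have hB0 : 0 ≤ B := (norm_nonneg _).trans (hB 0)
  have hl : LipschitzWith (Real.toNNReal B) f :=
    lipschitzWith_of_nnnorm_fderiv_le hd fun x => by
      rw [← NNReal.coe_le_coe, Real.coe_toNNReal _ hB0]
      exact hB x
  exact stmtHermL n f _ hl

/-- a `C¹` function with Lipschitz gradient has polynomial growth -/
lemma PL.of_C1 {K : ℝ} (hf : ContDiff ℝ 1 f) (hK : ∀ i x, |pd i f x| ≤ K * (1 + ‖x‖)) : PL f := by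
  have hd : Differentiable ℝ f := hf.differentiable (by simp)
  have hK0 : n = 0 ∨ 0 ≤ K := by
    rcases Nat.eq_zero_or_pos n with h | h
    · exact Or.inl h
    · right
      have := (abs_nonneg _).trans (hK ⟨0, h⟩ 0)
      simpa using this
  have hb : ∀ x, ‖fderiv ℝ f x‖ ≤ n * |K| * (1 + ‖x‖) := by
    intro x
    refine ContinuousLinearMap.opNorm_le_bound _ (by positivity) fun y => ?_
    have h1 : y = ∑ i, y i • (ei i : E n) := by
      ext j
      simp [ei, Pi.single_apply]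
    have h2 : fderiv ℝ f x y = ∑ i, y i * pd i f x := by
      conv_lhs => rw [h1]
      rw [map_sum]
      refine Finset.sum_congr rfl fun i _ => ?_
      rw [map_smul, smul_eq_mul]
      rfl
    rw [h2, Real.norm_eq_abs]
    calc |∑ i, y i * pd i f x| ≤ ∑ i, |y i * pd i f x| := Finset.abs_sum_le_sum_abs _ _
      _ ≤ ∑ _i : Fin n, (|K| * (1 + ‖x‖) * ‖y‖) := by
          refine Finset.sum_le_sum fun i _ => ?_
          rw [abs_mul]
          have h3 : |y i| ≤ ‖y‖ := by rw [← Real.norm_eq_abs]; exact PiLp.norm_apply_le _ i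
          have h4 : |pd i f x| ≤ |K| * (1 + ‖x‖) :=
            (hK i x).trans (mul_le_mul_of_nonneg_right (le_abs_self _) (by positivity))
          calc |y i| * |pd i f x| ≤ ‖y‖ * (|K| * (1 + ‖x‖)) :=
                mul_le_mul h3 h4 (abs_nonneg _) (norm_nonneg _)
            _ = _ := by ring
      _ = _ := by rw [Finset.sum_const, Finset.card_univ, Fintype.card_fin, nsmul_eq_mul]; ring
  have hl : ∀ x y, |f x - f y| ≤ n * |K| * (1 + ‖x‖ + ‖y‖) * ‖x - y‖ := by
    intro x y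
    have := Convex.norm_image_sub_le_of_norm_fderiv_le (𝕜 := ℝ) (f := f) (s := segment ℝ y x)
      (C := n * |K| * (1 + ‖x‖ + ‖y‖)) (fun z _ => hd z) (fun z hz => ?_) (convex_segment y x)
      (left_mem_segment ℝ y x) (right_mem_segment ℝ y x)
    · exact this
    · refine (hb z).trans (mul_le_mul_of_nonneg_left ?_ (by positivity))
      have hz' : ‖z‖ ≤ max ‖y‖ ‖x‖ := by
        have hc : ConvexOn ℝ Set.univ (fun z : E n => ‖z‖) := convexOn_norm convex_univ
        exact hc.le_max_of_mem_segment trivial trivial hz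
      have : max ‖y‖ ‖x‖ ≤ ‖x‖ + ‖y‖ := max_le (by linarith [norm_nonneg x]) (by linarith [norm_nonneg y])
      linarith
  refine ⟨|f 0| + n * |K|, 2, fun x => ?_, fun x y => ?_⟩
  · have h1 := hl x 0
    rw [sub_zero, norm_zero, add_zero] at h1
    have h2 : |f x| ≤ |f x - f 0| + |f 0| := by
      have := abs_add_le (f x - f 0) (f 0)
      simpa using this
    have h3 := norm_nonneg x
    have h4 : 0 ≤ (n : ℝ) * |K| := by positivity
    nlinarith [abs_nonneg (f 0), mul_nonneg h4 h3, mul_nonneg (abs_nonneg (f 0)) h3,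
      mul_nonneg (abs_nonneg (f 0)) (mul_nonneg h3 h3), mul_nonneg h4 (mul_nonneg h3 h3)]
  · refine (hl x y).trans (mul_le_mul_of_nonneg_right ?_ (norm_nonneg _))
    have h4 : 0 ≤ (n : ℝ) * |K| := by positivity
    have h5 := one_le_nxy x y
    have h6 : (1 + ‖x‖ + ‖y‖) ≤ (1 + ‖x‖ + ‖y‖) ^ 2 := by nlinarith
    have h7 : 0 ≤ (1 + ‖x‖ + ‖y‖) ^ 2 := sq_nonneg _
    nlinarith [mul_le_mul_of_nonneg_left h6 h4, mul_nonneg (abs_nonneg (f 0)) h7]

theorem stmtCov : SP.StmtCov := fun n f K hf hK Y hY => by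
  simp only [Ex_eq]
  have hp : PL f := by
    refine PL.of_C1 (K := (∑ i, |pd i f 0|) + K) hf fun i x => ?_
    have h1 : |pd i f x - pd i f 0| ≤ K * ‖x‖ := by
      have := (hK i).dist_le_mul x 0
      rwa [Real.dist_eq, dist_zero_right] at this
    have h2 : |pd i f x| ≤ |pd i f x - pd i f 0| + |pd i f 0| := by
      have := abs_add_le (pd i f x - pd i f 0) (pd i f 0)
      simpa using this
    have h3 : |pd i f 0| ≤ ∑ i, |pd i f 0| :=
      Finset.single_le_sum (f := fun i => |pd i f 0|) (fun i _ => abs_nonneg _) (Finset.mem_univ i)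
    have h4 : 0 ≤ ∑ i, |pd i f 0| := Finset.sum_nonneg fun i _ => abs_nonneg _
    have h5 := norm_nonneg x
    have h6 : (0 : ℝ) ≤ K := K.2
    nlinarith [mul_nonneg h4 h5]
  exact cov_int hp Y fun a i => PL.of_lipschitzWith (hY a i)

theorem stmtIBP2 : SP.StmtIBP2 := fun n f h K hf hh i => by
  simp only [Ex_eq]
  have hf' := PL.of_lipschitzWith hf
  have hh' := PL.of_lipschitzWith hh
  rw [ibp (hf'.mul hh') i]
  refine integral_congr_ae ?_
  filter_upwards [hf'.ae_diffQ, hh'.ae_diffQ] with x hx hx'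
  rw [pd_mul hx hx' i]
  ring

end Vale.Agent.P254.SP.H828
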