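import Vale.Agent.P254.SP.H828.Dual
import Vale.Agent.P254.SP.IfaceB

/-!
# P254, block SP: `StmtDual` of `SP/IfaceB.lean`
-/

open MeasureTheory Matrix Finset Filter
open scoped ENNReal NNReal Topology

noncomputable section

namespace Vale.Agent.P254.SP.H828

open Vale.Agent.P227.M Vale.Agent.P254.S Vale.Agent.P254.S130

variable {n : ℕ} {f g v w : E n → ℝ}

/-- trigonometric polynomials are analytic -/
lemma TT_omega (hv : v ∈ TT n) : ContDiff ℝ ⊤ v := by
  refine Submodule.span_induction (p := fun v _ => ContDiff ℝ ⊤ v) ?_ ?_ ?_ ?_ hv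
  · rintro _ (⟨ξ, rfl⟩ | ⟨ξ, rfl⟩)
    · exact Real.contDiff_cos.comp (innerSL ℝ ξ).contDiff
    · exact Real.contDiff_sin.comp (innerSL ℝ ξ).contDiff
  · exact contDiff_const
  · intro x y _ _ hx hy
    exact hx.add hy
  · intro a x _ hx
    exact contDiff_const.mul hx

/-- all derivatives are bounded -/
lemma TT_iter (k : ℕ) : ∀ v ∈ TT n, ∃ B : ℝ, ∀ x, ‖iteratedFDeriv ℝ k v x‖ ≤ B := by
  induction k with
  | zero =>
    intro v hv
    obtain ⟨B, hB⟩ := TT_bdd hv
    exact ⟨B, fun x => by rw [norm_iteratedFDeriv_zero]; exact hB x⟩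
  | succ k ih =>
    intro v hv
    choose B hB using fun i => ih (pd i v) (TT_pd hv i)
    have h1 : fderiv ℝ v = fun x => ∑ i, pd i v x • (EuclideanSpace.proj i : E n →L[ℝ] ℝ) := by
      funext x
      ext y
      have h2 : y = ∑ i, y i • (ei i : E n) := by
        ext j
        simp [ei, Pi.single_apply]
      conv_lhs => rw [h2]
      rw [map_sum]
      simp only [map_smul, smul_eq_mul, _root_.sum_apply, _root_.smul_apply]
      refine Finset.sum_congr rfl fun i _ => ?_
      show y i * pd i v x = pd i v x * y i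
      ring
    refine ⟨∑ i, B i * ‖(EuclideanSpace.proj i : E n →L[ℝ] ℝ)‖, fun x => ?_⟩
    rw [← norm_iteratedFDeriv_fderiv, h1]
    have hcd : ∀ i, ContDiff ℝ k (fun x => pd i v x • (EuclideanSpace.proj i : E n →L[ℝ] ℝ)) := fun i =>
      (((TT_omega (TT_pd hv i)).of_le le_top).smul contDiff_const)
    rw [iteratedFDeriv_fun_sum_apply fun i _ => (hcd i).contDiffAt]
    refine (norm_sum_le _ _).trans (Finset.sum_le_sum fun i _ => ?_)
    have h3 : (fun x => pd i v x • (EuclideanSpace.proj i : E n →L[ℝ] ℝ))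
        = (ContinuousLinearMap.smulRight (1 : ℝ →L[ℝ] ℝ) (EuclideanSpace.proj i : E n →L[ℝ] ℝ)) ∘ (pd i v) := by
      funext x
      simp
    rw [h3]
    refine ((ContinuousLinearMap.norm_iteratedFDeriv_comp_left _
      ((TT_omega (TT_pd hv i)).contDiffAt (x := x)) (n := k) le_top)).trans ?_
    rw [ContinuousLinearMap.norm_smulRight_apply, mul_comm]
    have h4 : ‖(1 : ℝ →L[ℝ] ℝ)‖ = 1 := by
      exact ContinuousLinearMap.norm_id
    rw [h4, one_mul]
    exact mul_le_mul_of_nonneg_right (hB i x) (norm_nonneg _)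

theorem stmtDual : SP.StmtDual := fun n f K C hf hK hb h => by
  have hp : PL f := by
    refine PL.of_C1 (K := K) hf fun i x => ?_
    have h1 := hb i x
    have h2 : (0 : ℝ) ≤ K := K.2
    nlinarith [norm_nonneg x, mul_nonneg h2 (norm_nonneg x)]
  refine dual hp C fun v hv => ?_
  have h1 := h v (TT_omega hv) fun k _ => TT_iter k v hv
  have h2 : Ex Q (fun z => ∑ i, ∑ j, pd j (pd i v) z ^ 2) = Ex Q (fun z => ∑ a, ∑ i, pd a (pd i v) z ^ 2) := by
    congr 1
    funext z
    exact Finset.sum_comm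
  rw [h2]
  exact h1

end Vale.Agent.P254.SP.H828
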