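import Vale.Agent.P254.SP.H828.PL

/-!
# P254, block SP: trigonometric test functions and the Ornstein-Uhlenbeck operator
-/

open MeasureTheory Matrix Finset Filter
open scoped ENNReal NNReal Topology

noncomputable section

namespace Vale.Agent.P254.SP.H828

open Vale.Agent.P227.M Vale.Agent.P254.S Vale.Agent.P254.S130

variable {n : ℕ} {f g v w : E n → ℝ}

/-- `cos ⟨ξ, x⟩` -/
def cs (ξ : E n) (x : E n) : ℝ := Real.cos (inner ℝ ξ x)

/-- `sin ⟨ξ, x⟩` -/
def sn (ξ : E n) (x : E n) : ℝ := Real.sin (inner ℝ ξ x)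

/-- trigonometric polynomials -/
def TT (n : ℕ) : Submodule ℝ (E n → ℝ) := Submodule.span ℝ (Set.range cs ∪ Set.range sn)

lemma cs_mem (ξ : E n) : cs ξ ∈ TT n := Submodule.subset_span (Or.inl ⟨ξ, rfl⟩)

lemma sn_mem (ξ : E n) : sn ξ ∈ TT n := Submodule.subset_span (Or.inr ⟨ξ, rfl⟩)

lemma inner_ei (ξ : E n) (i : Fin n) : inner ℝ ξ (ei i) = ξ i := by
  unfold ei
  rw [real_inner_comm]
  simp [EuclideanSpace.inner_single_left]

lemma hasFD_inner (ξ x : E n) : HasFDerivAt (fun y : E n => (inner ℝ ξ y : ℝ)) (innerSL ℝ ξ) x :=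
  (innerSL ℝ ξ).hasFDerivAt

lemma hasFD_cs (ξ x : E n) : HasFDerivAt (cs ξ) (-(sn ξ x) • (innerSL ℝ ξ)) x :=
  (hasFD_inner ξ x).cos

lemma hasFD_sn (ξ x : E n) : HasFDerivAt (sn ξ) ((cs ξ x) • (innerSL ℝ ξ)) x :=
  (hasFD_inner ξ x).sin

lemma pd_cs (ξ : E n) (i : Fin n) : pd i (cs ξ) = fun x => -(ξ i) * sn ξ x := by
  funext x
  unfold pd
  rw [(hasFD_cs ξ x).fderiv]
  simp only [_root_.smul_apply, innerSL_apply_apply, inner_ei, smul_eq_mul]
  ring

lemma pd_sn (ξ : E n) (i : Fin n) : pd i (sn ξ) = fun x => (ξ i) * cs ξ x := by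
  funext x
  unfold pd
  rw [(hasFD_sn ξ x).fderiv]
  simp only [_root_.smul_apply, innerSL_apply_apply, inner_ei, smul_eq_mul]
  ring

lemma contDiff_cs (ξ : E n) : ContDiff ℝ (⊤ : ℕ∞) (cs ξ) :=
  Real.contDiff_cos.comp (innerSL ℝ ξ).contDiff

lemma contDiff_sn (ξ : E n) : ContDiff ℝ (⊤ : ℕ∞) (sn ξ) :=
  Real.contDiff_sin.comp (innerSL ℝ ξ).contDiff

lemma pd_smul {x : E n} (c : ℝ) (hf : DifferentiableAt ℝ f x) (i : Fin n) :
    pd i (fun y => c * f y) x = c * pd i f x := by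
  unfold pd
  rw [fderiv_const_mul hf]
  simp

/-- trigonometric polynomials are smooth -/
lemma TT_contDiff (hv : v ∈ TT n) : ContDiff ℝ (⊤ : ℕ∞) v := by
  refine Submodule.span_induction (p := fun v _ => ContDiff ℝ (⊤ : ℕ∞) v) ?_ ?_ ?_ ?_ hv
  · rintro _ (⟨ξ, rfl⟩ | ⟨ξ, rfl⟩)
    · exact contDiff_cs ξ
    · exact contDiff_sn ξ
  · exact contDiff_const
  · intro x y _ _ hx hy
    exact hx.add hy
  · intro a x _ hx
    exact contDiff_const.mul hx

lemma TT_diff (hv : v ∈ TT n) : Differentiable ℝ v := (TT_contDiff hv).differentiable (by simp)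

/-- closed under partial derivatives -/
lemma TT_pd (hv : v ∈ TT n) (i : Fin n) : pd i v ∈ TT n := by
  have h : v ∈ TT n ∧ pd i v ∈ TT n := by
    refine Submodule.span_induction (p := fun v _ => v ∈ TT n ∧ pd i v ∈ TT n) ?_ ?_ ?_ ?_ hv
    · rintro _ (⟨ξ, rfl⟩ | ⟨ξ, rfl⟩)
      · refine ⟨cs_mem ξ, ?_⟩
        rw [pd_cs]
        exact (TT n).smul_mem (-(ξ i)) (sn_mem ξ)
      · refine ⟨sn_mem ξ, ?_⟩
        rw [pd_sn]
        exact (TT n).smul_mem (ξ i) (cs_mem ξ)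
    · refine ⟨(TT n).zero_mem, ?_⟩
      have : pd i (0 : E n → ℝ) = 0 := by
        funext x
        exact pd_const 0 i x
      rw [this]
      exact (TT n).zero_mem
    · rintro x y _ _ ⟨hx, hx'⟩ ⟨hy, hy'⟩
      refine ⟨(TT n).add_mem hx hy, ?_⟩
      have : pd i (x + y) = pd i x + pd i y := by
        funext z
        exact pd_add (TT_diff hx z) (TT_diff hy z) i
      rw [this]
      exact (TT n).add_mem hx' hy'
    · rintro a x _ ⟨hx, hx'⟩
      refine ⟨(TT n).smul_mem a hx, ?_⟩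
      have : pd i (a • x) = a • pd i x := by
        funext z
        exact pd_smul a (TT_diff hx z) i
      rw [this]
      exact (TT n).smul_mem a hx'
  exact h.2

/-- bounded -/
lemma TT_bdd (hv : v ∈ TT n) : ∃ B, ∀ x, |v x| ≤ B := by
  refine Submodule.span_induction (p := fun v _ => ∃ B, ∀ x, |v x| ≤ B) ?_ ?_ ?_ ?_ hv
  · rintro _ (⟨ξ, rfl⟩ | ⟨ξ, rfl⟩)
    · exact ⟨1, fun x => Real.abs_cos_le_one _⟩
    · exact ⟨1, fun x => Real.abs_sin_le_one _⟩
  · exact ⟨0, fun x => by simp⟩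
  · rintro x y _ _ ⟨A, hA⟩ ⟨B, hB⟩
    exact ⟨A + B, fun z => (abs_add_le _ _).trans (add_le_add (hA z) (hB z))⟩
  · rintro a x _ ⟨A, hA⟩
    refine ⟨|a| * A, fun z => ?_⟩
    show |a * x z| ≤ _
    rw [abs_mul]
    exact mul_le_mul_of_nonneg_left (hA z) (abs_nonneg _)

lemma TT_lip (hv : v ∈ TT n) : ∃ K, ∀ x y, |v x - v y| ≤ K * ‖x - y‖ := by
  refine Submodule.span_induction (p := fun v _ => ∃ K, ∀ x y, |v x - v y| ≤ K * ‖x - y‖) ?_ ?_ ?_ ?_ hv
  · rintro _ (⟨ξ, rfl⟩ | ⟨ξ, rfl⟩)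
    · refine ⟨‖ξ‖, fun x y => ?_⟩
      unfold cs
      have h1 : |Real.cos (inner ℝ ξ x) - Real.cos (inner ℝ ξ y)| ≤ |inner ℝ ξ x - inner ℝ ξ y| := by
        have := Real.abs_cos_sub_cos_le (inner ℝ ξ x) (inner ℝ ξ y)
        exact this
      rw [← inner_sub_right] at h1
      exact h1.trans (abs_real_inner_le_norm _ _)
    · refine ⟨‖ξ‖, fun x y => ?_⟩
      unfold sn
      have h1 : |Real.sin (inner ℝ ξ x) - Real.sin (inner ℝ ξ y)| ≤ |inner ℝ ξ x - inner ℝ ξ y| := by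
        have := Real.abs_sin_sub_sin_le (inner ℝ ξ x) (inner ℝ ξ y)
        exact this
      rw [← inner_sub_right] at h1
      exact h1.trans (abs_real_inner_le_norm _ _)
  · exact ⟨0, fun x y => by simp⟩
  · rintro x y _ _ ⟨A, hA⟩ ⟨B, hB⟩
    refine ⟨A + B, fun z w => ?_⟩
    have e : (x + y) z - (x + y) w = (x z - x w) + (y z - y w) := by
      simp only [Pi.add_apply]; ring
    rw [e, add_mul]
    exact (abs_add_le _ _).trans (add_le_add (hA z w) (hB z w))
  · rintro a x _ ⟨A, hA⟩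
    refine ⟨|a| * A, fun z w => ?_⟩
    have e : (a • x) z - (a • x) w = a * (x z - x w) := by
      simp only [Pi.smul_apply, smul_eq_mul]; ring
    rw [e, abs_mul, mul_assoc]
    exact mul_le_mul_of_nonneg_left (hA z w) (abs_nonneg _)

lemma TT_BL (hv : v ∈ TT n) : BL v := ⟨TT_bdd hv, TT_lip hv⟩

lemma TT_PL (hv : v ∈ TT n) : PL v := PL.of_BL (TT_BL hv)

/-- symmetry of second derivatives -/
lemma TT_comm (hv : v ∈ TT n) (i j : Fin n) : pd i (pd j v) = pd j (pd i v) := by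
  have key : ∀ v ∈ TT n, ∀ i j x, pd i (pd j v) x = fderiv ℝ (fderiv ℝ v) x (ei i) (ei j) := by
    intro v hv i j x
    have h1 : DifferentiableAt ℝ (fderiv ℝ v) x :=
      ((TT_contDiff hv).fderiv_right (m := 1) (by norm_cast)).differentiable (by simp) x
    have h2 : HasFDerivAt (pd j v)
        ((ContinuousLinearMap.apply ℝ ℝ (ei j : E n)).comp (fderiv ℝ (fderiv ℝ v) x)) x :=
      (ContinuousLinearMap.apply ℝ ℝ (ei j : E n)).hasFDerivAt.comp x h1.hasFDerivAt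
    show fderiv ℝ (pd j v) x (ei i) = _
    rw [h2.fderiv]
    rfl
  funext x
  rw [key v hv i j x, key v hv j i x]
  have hs : IsSymmSndFDerivAt ℝ v x :=
    ((TT_contDiff hv).contDiffAt).isSymmSndFDerivAt (by
      rw [minSmoothness_of_isRCLikeNormedField]
      exact WithTop.coe_le_coe.2 (le_top : (2 : ℕ∞) ≤ ⊤))
  exact hs.eq _ _

/-! ### Ornstein-Uhlenbeck operator -/

/-- `N v = ⟨x, ∇v⟩ - Δ v` -/
def NN (v : E n → ℝ) (x : E n) : ℝ := ∑ i, (x i * pd i v x - pd i (pd i v) x)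

lemma NN_cs (ξ x : E n) : NN (cs ξ) x = ‖ξ‖ ^ 2 * cs ξ x - inner ℝ ξ x * sn ξ x := by
  unfold NN
  have h : ∀ i, x i * pd i (cs ξ) x - pd i (pd i (cs ξ)) x
      = ξ i ^ 2 * cs ξ x - (ξ i * x i) * sn ξ x := by
    intro i
    rw [pd_cs]
    have : pd i (fun x => -(ξ i) * sn ξ x) x = -(ξ i) * pd i (sn ξ) x :=
      pd_smul _ (TT_diff (sn_mem ξ) x) i
    rw [this, pd_sn]
    ring
  rw [Finset.sum_congr rfl fun i _ => h i, Finset.sum_sub_distrib, ← Finset.sum_mul, ← Finset.sum_mul]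
  congr 2
  · rw [EuclideanSpace.norm_sq_eq]
    simp
  · rw [real_inner_comm]
    simp [PiLp.inner_apply]

lemma NN_sn (ξ x : E n) : NN (sn ξ) x = ‖ξ‖ ^ 2 * sn ξ x + inner ℝ ξ x * cs ξ x := by
  unfold NN
  have h : ∀ i, x i * pd i (sn ξ) x - pd i (pd i (sn ξ)) x
      = ξ i ^ 2 * sn ξ x + (ξ i * x i) * cs ξ x := by
    intro i
    rw [pd_sn]
    have : pd i (fun x => (ξ i) * cs ξ x) x = (ξ i) * pd i (cs ξ) x :=
      pd_smul _ (TT_diff (cs_mem ξ) x) i
    rw [this, pd_cs]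
    ring
  rw [Finset.sum_congr rfl fun i _ => h i, Finset.sum_add_distrib, ← Finset.sum_mul, ← Finset.sum_mul]
  congr 2
  · rw [EuclideanSpace.norm_sq_eq]
    simp
  · rw [real_inner_comm]
    simp [PiLp.inner_apply]

lemma NN_PL (hv : v ∈ TT n) : PL (NN v) := by
  unfold NN
  exact PL.sum _ fun i _ => ((PL.coord i).mul (TT_PL (TT_pd hv i))).sub (TT_PL (TT_pd (TT_pd hv i) i))

lemma NN_add (hv : v ∈ TT n) (hw : w ∈ TT n) (x : E n) : NN (v + w) x = NN v x + NN w x := by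
  unfold NN
  rw [← Finset.sum_add_distrib]
  refine Finset.sum_congr rfl fun i _ => ?_
  have h1 : pd i (v + w) = pd i v + pd i w := by
    funext z; exact pd_add (TT_diff hv z) (TT_diff hw z) i
  have h2 : pd i (pd i v + pd i w) x = pd i (pd i v) x + pd i (pd i w) x :=
    pd_add (TT_diff (TT_pd hv i) x) (TT_diff (TT_pd hw i) x) i
  rw [h1, h2, Pi.add_apply]
  ring

lemma NN_smul (a : ℝ) (hv : v ∈ TT n) (x : E n) : NN (a • v) x = a * NN v x := by
  unfold NN
  rw [Finset.mul_sum]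
  refine Finset.sum_congr rfl fun i _ => ?_
  have h1 : pd i (a • v) = a • pd i v := by
    funext z; exact pd_smul a (TT_diff hv z) i
  have h2 : pd i (a • pd i v) x = a * pd i (pd i v) x := pd_smul a (TT_diff (TT_pd hv i) x) i
  rw [h1, h2, Pi.smul_apply, smul_eq_mul]
  ring

/-- integration by parts against a second function -/
theorem ibp2 (hf : PL f) (hg : PL g) (i : Fin n) :
    ∫ x, (x i * f x - pd i f x) * g x ∂(gQ n) = ∫ x, f x * pd i g x ∂(gQ n) := by
  have h := ibp (hf.mul hg) i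
  have e1 : ∫ x, pd i (fun y => f y * g y) x ∂(gQ n) = ∫ x, (f x * pd i g x + g x * pd i f x) ∂(gQ n) := by
    refine integral_congr_ae ?_
    filter_upwards [hf.ae_diffQ, hg.ae_diffQ] with x hx hx'
    exact pd_mul hx hx' i
  have i1 : Integrable (fun x => f x * pd i g x) (gQ n) :=
    (hf.pg.mul (hg.pg_pd i)).integrable (hf.meas.mul (meas_pd g i).aestronglyMeasurable)
  have i2 : Integrable (fun x => g x * pd i f x) (gQ n) :=
    (hg.pg.mul (hf.pg_pd i)).integrable (hg.meas.mul (meas_pd f i).aestronglyMeasurable)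
  have i3 : Integrable (fun x : E n => x i * (f x * g x)) (gQ n) :=
    ((PL.coord i).mul (hf.mul hg)).integrable
  rw [e1, integral_add i1 i2] at h
  have e2 : ∫ x, (x i * f x - pd i f x) * g x ∂(gQ n)
      = ∫ x, (x i * (f x * g x)) ∂(gQ n) - ∫ x, g x * pd i f x ∂(gQ n) := by
    rw [← integral_sub i3 i2]
    refine integral_congr_ae (ae_of_all _ fun x => ?_)
    show (x i * f x - pd i f x) * g x = x i * (f x * g x) - g x * pd i f x
    ring
  rw [e2, h]
  ring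

/-- `E (N v) g = E ⟨∇v, ∇g⟩` -/
theorem NN_ibp (hv : v ∈ TT n) (hg : PL g) :
    ∫ x, NN v x * g x ∂(gQ n) = ∑ i, ∫ x, pd i v x * pd i g x ∂(gQ n) := by
  have h : ∀ i : Fin n, Integrable (fun x => (x i * pd i v x - pd i (pd i v) x) * g x) (gQ n) := fun i =>
    ((((PL.coord i).mul (TT_PL (TT_pd hv i))).sub (TT_PL (TT_pd (TT_pd hv i) i))).mul hg).integrable
  have e : ∫ x, NN v x * g x ∂(gQ n)
      = ∑ i, ∫ x, (x i * pd i v x - pd i (pd i v) x) * g x ∂(gQ n) := by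
    rw [← integral_finsetSum _ fun i _ => h i]
    refine integral_congr_ae (ae_of_all _ fun x => ?_)
    show NN v x * g x = _
    unfold NN
    rw [Finset.sum_mul]
  rw [e]
  exact Finset.sum_congr rfl fun i _ => ibp2 (TT_PL (TT_pd hv i)) hg i

lemma pd_NN (hv : v ∈ TT n) (i : Fin n) (x : E n) : pd i (NN v) x = pd i v x + NN (pd i v) x := by
  have hd : ∀ j, DifferentiableAt ℝ (fun y : E n => y j * pd j v y - pd j (pd j v) y) x := fun j =>
    (((EuclideanSpace.proj j : E n →L[ℝ] ℝ).differentiableAt).mul (TT_diff (TT_pd hv j) x)).sub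
      (TT_diff (TT_pd (TT_pd hv j) j) x)
  have hc : ∀ j, DifferentiableAt ℝ (fun y : E n => y j) x := fun j =>
    (EuclideanSpace.proj j : E n →L[ℝ] ℝ).differentiableAt
  have h1 : pd i (NN v) x = ∑ j, pd i (fun y : E n => y j * pd j v y - pd j (pd j v) y) x := by
    have := pd_sum (Finset.univ : Finset (Fin n)) (f := fun j (y : E n) => y j * pd j v y - pd j (pd j v) y)
      (x := x) (fun j _ => hd j) i
    exact this
  have h2 : ∀ j, pd i (fun y : E n => y j * pd j v y - pd j (pd j v) y) x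
      = (if i = j then pd j v x else 0) + (x j * pd j (pd i v) x - pd j (pd j (pd i v)) x) := by
    intro j
    rw [pd_sub (f := fun y : E n => y j * pd j v y) ((hc j).mul (TT_diff (TT_pd hv j) x))
      (TT_diff (TT_pd (TT_pd hv j) j) x) i, pd_mul (hc j) (TT_diff (TT_pd hv j) x) i, pd_coord,
      TT_comm hv i j, TT_comm (TT_pd hv j) i j, TT_comm hv i j]
    split_ifs <;> ring
  rw [h1, Finset.sum_congr rfl fun j _ => h2 j, Finset.sum_add_distrib]
  simp [NN]

/-- **Bochner** `E (N v)² = E |∇v|² + E |D²v|²` -/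
theorem bochner (hv : v ∈ TT n) :
    ∫ x, NN v x ^ 2 ∂(gQ n)
      = ∫ x, ∑ i, pd i v x ^ 2 ∂(gQ n) + ∫ x, ∑ i, ∑ j, pd j (pd i v) x ^ 2 ∂(gQ n) := by
  have hi1 : ∀ i : Fin n, Integrable (fun x => pd i v x ^ 2) (gQ n) := fun i => by
    have := ((TT_PL (TT_pd hv i)).mul (TT_PL (TT_pd hv i))).integrable
    simpa only [pow_two] using this
  have hi2 : ∀ i j : Fin n, Integrable (fun x => pd j (pd i v) x ^ 2) (gQ n) := fun i j => by
    have := ((TT_PL (TT_pd (TT_pd hv i) j)).mul (TT_PL (TT_pd (TT_pd hv i) j))).integrable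
    simpa only [pow_two] using this
  have hi3 : ∀ i : Fin n, Integrable (fun x => pd i v x * NN (pd i v) x) (gQ n) := fun i =>
    ((TT_PL (TT_pd hv i)).mul (NN_PL (TT_pd hv i))).integrable
  have e1 : ∫ x, NN v x ^ 2 ∂(gQ n) = ∫ x, NN v x * NN v x ∂(gQ n) := by
    simp only [pow_two]
  rw [e1, NN_ibp hv (NN_PL hv), integral_finsetSum _ fun i _ => hi1 i,
    integral_finsetSum _ fun i _ => integrable_finsetSum _ fun j _ => hi2 i j, ← Finset.sum_add_distrib]
  refine Finset.sum_congr rfl fun i _ => ?_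
  rw [integral_finsetSum _ fun j _ => hi2 i j]
  have e2 : ∫ x, pd i v x * pd i (NN v) x ∂(gQ n)
      = ∫ x, pd i v x ^ 2 ∂(gQ n) + ∫ x, pd i v x * NN (pd i v) x ∂(gQ n) := by
    rw [← integral_add (hi1 i) (hi3 i)]
    refine integral_congr_ae (ae_of_all _ fun x => ?_)
    show pd i v x * pd i (NN v) x = pd i v x ^ 2 + pd i v x * NN (pd i v) x
    rw [pd_NN hv i x]
    ring
  have e3 : ∫ x, pd i v x * NN (pd i v) x ∂(gQ n) = ∑ j, ∫ x, pd j (pd i v) x ^ 2 ∂(gQ n) := by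
    have := NN_ibp (TT_pd hv i) (TT_PL (TT_pd hv i))
    rw [show (∫ x, pd i v x * NN (pd i v) x ∂(gQ n)) = ∫ x, NN (pd i v) x * pd i v x ∂(gQ n) from by
      simp only [mul_comm], this]
    simp only [pow_two]
  rw [e2, e3]

end Vale.Agent.P254.SP.H828
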